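import Vale.Agent.H10.PL

open MeasureTheory Set Filter Topology Metric
open scoped ENNReal NNReal

namespace Vale.Agent.H21.LBM

/-- midpoint multiplicative Brunn-Minkowski for compact sets -/
lemma mid_bm {m : ℕ} {A B C : Set (Fin m → ℝ)} (hA : IsCompact A) (hB : IsCompact B)
    (hC : IsCompact C) (h : ∀ a ∈ A, ∀ b ∈ B, (1 / 2 : ℝ) • (a + b) ∈ C) :
    volume A * volume B ≤ volume C ^ 2 := by
  obtain ⟨RA, hRA⟩ := hA.isBounded.exists_norm_le
  obtain ⟨RB, hRB⟩ := hB.isBounded.exists_norm_le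
  have hi : ∀ (x : Fin m → ℝ) (i : Fin m), |x i| ≤ ‖x‖ := fun x i => norm_le_pi_norm x i
  have key := Vale.Agent.H10.OT.pl_pi m (f := A.indicator 1) (g := B.indicator 1)
    (h := C.indicator 1) (measurable_one.indicator hA.measurableSet)
    (measurable_one.indicator hB.measurableSet) (measurable_one.indicator hC.measurableSet)
    (R := max RA RB) (C := 1)
    (fun x => by
      by_cases hx : x ∈ A
      · simp [hx]
      · simp [hx])
    (fun x => by
      by_cases hx : x ∈ B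
      · simp [hx]
      · simp [hx])
    (fun x i hx => by
      apply indicator_of_notMem
      intro hxA
      have := (hi x i).trans (hRA x hxA)
      exact absurd hx (not_lt.2 (this.trans (le_max_left _ _))))
    (fun x i hx => by
      apply indicator_of_notMem
      intro hxA
      have := (hi x i).trans (hRB x hxA)
      exact absurd hx (not_lt.2 (this.trans (le_max_right _ _))))
    (fun x y => by
      by_cases hx : x ∈ A
      · by_cases hy : y ∈ B
        · have := h x hx y hy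
          rw [indicator_of_mem hx, indicator_of_mem hy, indicator_of_mem this]
          simp
        · simp [hy]
      · simp [hx])
  rwa [lintegral_indicator_one hA.measurableSet, lintegral_indicator_one hB.measurableSet,
    lintegral_indicator_one hC.measurableSet] at key

/-- Minkowski combination -/
def comb {m : ℕ} (μ : ℝ) (A B : Set (Fin m → ℝ)) : Set (Fin m → ℝ) :=
  (fun p : (Fin m → ℝ) × (Fin m → ℝ) => (1 - μ) • p.1 + μ • p.2) '' (A ×ˢ B)

lemma comb_compact {m : ℕ} (μ : ℝ) {A B : Set (Fin m → ℝ)} (hA : IsCompact A) (hB : IsCompact B) :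
    IsCompact (comb μ A B) := by
  apply (hA.prod hB).image
  fun_prop

lemma comb_mid {m : ℕ} {A B : Set (Fin m → ℝ)} (hA : Convex ℝ A) (hB : Convex ℝ B)
    {μ ν : ℝ} (hμ : μ ∈ Icc (0 : ℝ) 1) (hν : ν ∈ Icc (0 : ℝ) 1) {x y : Fin m → ℝ}
    (hx : x ∈ comb μ A B) (hy : y ∈ comb ν A B) :
    (1 / 2 : ℝ) • (x + y) ∈ comb ((μ + ν) / 2) A B := by
  obtain ⟨⟨a, b⟩, ⟨ha, hb⟩, rfl⟩ := hx
  obtain ⟨⟨a', b'⟩, ⟨ha', hb'⟩, rfl⟩ := hy
  simp only at ha hb ha' hb'
  obtain ⟨h0, h1⟩ := hμ
  obtain ⟨h0', h1'⟩ := hν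
  have hsc : ∀ p s : ℝ, s ≠ 0 → s * (p / (2 * s)) = 1 / 2 * p := fun p s hs => by field_simp
  have hA1 : ∃ a'' ∈ A, (1 - (μ + ν) / 2) • a'' = (1 / 2 : ℝ) • ((1 - μ) • a + (1 - ν) • a') := by
    by_cases h2 : 1 - (μ + ν) / 2 = 0
    · refine ⟨a, ha, ?_⟩
      have e1 : μ = 1 := by linarith
      have e2 : ν = 1 := by linarith
      subst e1 e2
      simp
    · have hpos : 0 < 1 - (μ + ν) / 2 := lt_of_le_of_ne (by linarith) (Ne.symm h2)
      refine ⟨((1 - μ) / (2 * (1 - (μ + ν) / 2))) • a + ((1 - ν) / (2 * (1 - (μ + ν) / 2))) • a',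
        hA ha ha' (by apply div_nonneg <;> linarith) (by apply div_nonneg <;> linarith) ?_, ?_⟩
      · rw [← add_div, div_eq_one_iff_eq (by positivity)]
        ring
      · rw [smul_add, smul_smul, smul_smul, smul_add, smul_smul, smul_smul,
          hsc _ _ hpos.ne', hsc _ _ hpos.ne']
  have hB1 : ∃ b'' ∈ B, ((μ + ν) / 2) • b'' = (1 / 2 : ℝ) • (μ • b + ν • b') := by
    by_cases h2 : (μ + ν) / 2 = 0
    · refine ⟨b, hb, ?_⟩
      have e1 : μ = 0 := by linarith
      have e2 : ν = 0 := by linarith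
      subst e1 e2
      simp
    · have hpos : 0 < (μ + ν) / 2 := lt_of_le_of_ne (by linarith) (Ne.symm h2)
      refine ⟨(μ / (2 * ((μ + ν) / 2))) • b + (ν / (2 * ((μ + ν) / 2))) • b',
        hB hb hb' (by positivity) (by positivity) ?_, ?_⟩
      · rw [← add_div, div_eq_one_iff_eq (by positivity)]
        ring
      · rw [smul_add, smul_smul, smul_smul, smul_add, smul_smul, smul_smul,
          hsc _ _ hpos.ne', hsc _ _ hpos.ne']
  obtain ⟨a'', ha'', ea⟩ := hA1
  obtain ⟨b'', hb'', eb⟩ := hB1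
  refine ⟨(a'', b''), ⟨ha'', hb''⟩, ?_⟩
  simp only
  rw [ea, eb]
  simp only [smul_add, smul_smul]
  abel

/-- a closed, midpoint-closed subset of `[0,1]` containing `0` and `1` is everything -/
lemma closed_mid {S : Set ℝ} (hS : IsClosed S) (h0 : (0 : ℝ) ∈ S) (h1 : (1 : ℝ) ∈ S)
    (hm : ∀ x ∈ S, ∀ y ∈ S, (x + y) / 2 ∈ S) {t : ℝ} (ht : t ∈ Icc (0 : ℝ) 1) : t ∈ S := by
  by_contra hcon
  set L := S ∩ Iic t with hL
  set U := S ∩ Ici t with hU
  have hLc : IsClosed L := hS.inter isClosed_Iic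
  have hUc : IsClosed U := hS.inter isClosed_Ici
  have hLne : L.Nonempty := ⟨0, h0, ht.1⟩
  have hUne : U.Nonempty := ⟨1, h1, ht.2⟩
  have hLb : BddAbove L := ⟨t, fun x hx => hx.2⟩
  have hUb : BddBelow U := ⟨t, fun x hx => hx.2⟩
  have ha := hLc.csSup_mem hLne hLb
  have hb := hUc.csInf_mem hUne hUb
  set a := sSup L
  set b := sInf U
  have hat : a < t := lt_of_le_of_ne ha.2 (fun h => hcon (h ▸ ha.1))
  have hbt : t < b := lt_of_le_of_ne hb.2 (fun h => hcon (h ▸ hb.1))
  have hmid := hm a ha.1 b hb.1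
  rcases le_total ((a + b) / 2) t with h | h
  · have := le_csSup hLb (show (a + b) / 2 ∈ L from ⟨hmid, h⟩)
    change (a + b) / 2 ≤ a at this
    linarith
  · have := csInf_le hUb (show (a + b) / 2 ∈ U from ⟨hmid, h⟩)
    change b ≤ (a + b) / 2 at this
    linarith

lemma comb_usc {m : ℕ} {A B : Set (Fin m → ℝ)} (hA : IsCompact A) (hB : IsCompact B)
    (μ : ℝ) {c : ℝ} (hc : (volume (comb μ A B)).toReal < c) :
    ∀ᶠ ν in 𝓝 μ, (volume (comb ν A B)).toReal < c := by
  obtain ⟨RA, hRA⟩ := hA.isBounded.exists_norm_le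
  obtain ⟨RB, hRB⟩ := hB.isBounded.exists_norm_le
  have hK := comb_compact μ hA hB
  have hKt : volume (comb μ A B) ≠ ⊤ := hK.measure_lt_top.ne
  have hc0 : 0 < c := lt_of_le_of_lt ENNReal.toReal_nonneg hc
  have hlt : volume (comb μ A B) < ENNReal.ofReal c := by
    rwa [ENNReal.lt_ofReal_iff_toReal_lt hKt]
  have ht := tendsto_measure_cthickening_of_isCompact (μ := (volume : Measure (Fin m → ℝ))) hK
  have h1 : Tendsto (fun ν : ℝ => (RA + RB) * |ν - μ|) (𝓝 μ) (𝓝 0) := by
    have : Tendsto (fun ν : ℝ => (RA + RB) * |ν - μ|) (𝓝 μ) (𝓝 ((RA + RB) * |μ - μ|)) := by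
      apply Continuous.tendsto
      fun_prop
    simpa using this
  filter_upwards [(ht.comp h1).eventually (gt_mem_nhds hlt)] with ν hν
  have hsub : comb ν A B ⊆ cthickening ((RA + RB) * |ν - μ|) (comb μ A B) := by
    rintro _ ⟨⟨a, b⟩, ⟨ha, hb⟩, rfl⟩
    simp only at ha hb
    have hmem : (1 - μ) • a + μ • b ∈ comb μ A B := ⟨(a, b), ⟨ha, hb⟩, rfl⟩
    refine mem_cthickening_of_dist_le _ ((1 - μ) • a + μ • b) _ _ hmem ?_
    rw [dist_eq_norm]
    have : (1 - ν) • a + ν • b - ((1 - μ) • a + μ • b) = (ν - μ) • (b - a) := by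
      simp only [sub_smul, smul_sub]
      abel
    rw [this, norm_smul, Real.norm_eq_abs, mul_comm]
    apply mul_le_mul_of_nonneg_right _ (abs_nonneg _)
    calc ‖b - a‖ ≤ ‖b‖ + ‖a‖ := norm_sub_le _ _
      _ ≤ RA + RB := by linarith [hRA a ha, hRB b hb]
  have h2 : volume (comb ν A B) < ENNReal.ofReal c := lt_of_le_of_lt (measure_mono hsub) hν
  rwa [ENNReal.lt_ofReal_iff_toReal_lt (comb_compact ν hA hB).measure_lt_top.ne] at h2

/-- multiplicative Brunn-Minkowski with a general weight, compact convex sets -/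
theorem bm_weight {m : ℕ} {A B : Set (Fin m → ℝ)} (hA : IsCompact A) (hB : IsCompact B)
    (hAc : Convex ℝ A) (hBc : Convex ℝ B) {μ : ℝ} (h0 : 0 < μ) (h1 : μ < 1) :
    (volume A).toReal ^ (1 - μ) * (volume B).toReal ^ μ ≤ (volume (comb μ A B)).toReal := by
  set α := (volume A).toReal with hα
  set β := (volume B).toReal with hβ
  rcases (ENNReal.toReal_nonneg (a := volume A)).eq_or_lt with hα0 | hα0
  · rw [← hα] at hα0
    rw [← hα0, Real.zero_rpow (by linarith), zero_mul]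
    exact ENNReal.toReal_nonneg
  rcases (ENNReal.toReal_nonneg (a := volume B)).eq_or_lt with hβ0 | hβ0
  · rw [← hβ] at hβ0
    rw [← hβ0, Real.zero_rpow (by linarith), mul_zero]
    exact ENNReal.toReal_nonneg
  rw [← hα] at hα0
  rw [← hβ] at hβ0
  have hAne : A.Nonempty := by
    rw [nonempty_iff_ne_empty]
    rintro rfl
    simp [hα] at hα0
  have hBne : B.Nonempty := by
    rw [nonempty_iff_ne_empty]
    rintro rfl
    simp [hβ] at hβ0
  set f : ℝ → ℝ := fun μ => (volume (comb μ A B)).toReal with hf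
  set Θ : ℝ → ℝ := fun μ => α ^ (1 - μ) * β ^ μ with hΘ
  have hΘc : Continuous Θ := by
    apply Continuous.mul
    · exact Real.continuous_const_rpow hα0.ne' |>.comp (by fun_prop)
    · exact Real.continuous_const_rpow hβ0.ne'
  set S : Set ℝ := {ν | ν ∈ Icc (0 : ℝ) 1 ∧ Θ ν ≤ f ν} with hS
  have hSc : IsClosed S := by
    rw [← isOpen_compl_iff, isOpen_iff_mem_nhds]
    intro ν hν
    by_cases hI : ν ∈ Icc (0 : ℝ) 1
    · have hlt : f ν < Θ ν := by
        by_contra hcon
        exact hν ⟨hI, not_lt.1 hcon⟩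
      have hc1 : f ν < (f ν + Θ ν) / 2 := by linarith
      have hc2 : (f ν + Θ ν) / 2 < Θ ν := by linarith
      filter_upwards [comb_usc hA hB ν hc1, hΘc.continuousAt.eventually (lt_mem_nhds hc2)]
        with ν' h1' h2' h3'
      have := h3'.2
      simp only [hf] at this
      linarith
    · filter_upwards [isClosed_Icc.isOpen_compl.mem_nhds hI] with ν' h' h''
      exact h' h''.1
  have hc0 : comb 0 A B = A := by
    ext x
    simp only [comb, mem_image, mem_prod, Prod.exists, sub_zero, one_smul, zero_smul, add_zero]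
    constructor
    · rintro ⟨a, b, ⟨ha, -⟩, rfl⟩
      exact ha
    · intro hx
      obtain ⟨b, hb⟩ := hBne
      exact ⟨x, b, ⟨hx, hb⟩, rfl⟩
  have hc1 : comb 1 A B = B := by
    ext x
    simp only [comb, mem_image, mem_prod, Prod.exists, sub_self, zero_smul, one_smul, zero_add]
    constructor
    · rintro ⟨a, b, ⟨-, hb⟩, rfl⟩
      exact hb
    · intro hx
      obtain ⟨a, ha⟩ := hAne
      exact ⟨a, x, ⟨ha, hx⟩, rfl⟩
  have h0S : (0 : ℝ) ∈ S := by
    refine ⟨by simp, ?_⟩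
    simp only [hΘ, hf, hc0, sub_zero, Real.rpow_one, Real.rpow_zero, mul_one]
    exact le_of_eq hα
  have h1S : (1 : ℝ) ∈ S := by
    refine ⟨by simp, ?_⟩
    simp only [hΘ, hf, hc1, sub_self, Real.rpow_one, Real.rpow_zero, one_mul]
    exact le_of_eq hβ
  have hmS : ∀ x ∈ S, ∀ y ∈ S, (x + y) / 2 ∈ S := by
    rintro x ⟨hx, hx'⟩ y ⟨hy, hy'⟩
    refine ⟨⟨by linarith [hx.1, hy.1], by linarith [hx.2, hy.2]⟩, ?_⟩
    have key := mid_bm (comb_compact x hA hB) (comb_compact y hA hB)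
      (comb_compact ((x + y) / 2) hA hB) (fun a ha b hb => comb_mid hAc hBc hx hy ha hb)
    have key' : f x * f y ≤ f ((x + y) / 2) ^ 2 := by
      have h3 := ENNReal.toReal_mono
        (ENNReal.pow_ne_top (comb_compact ((x + y) / 2) hA hB).measure_lt_top.ne) key
      rwa [ENNReal.toReal_mul, ENNReal.toReal_pow] at h3
    have hΘ2 : Θ ((x + y) / 2) ^ 2 = Θ x * Θ y := by
      simp only [hΘ]
      rw [mul_pow, ← Real.rpow_natCast, ← Real.rpow_natCast, ← Real.rpow_mul hα0.le,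
        ← Real.rpow_mul hβ0.le]
      have : α ^ (1 - x) * β ^ x * (α ^ (1 - y) * β ^ y) =
          (α ^ (1 - x) * α ^ (1 - y)) * (β ^ x * β ^ y) := by ring
      rw [this, ← Real.rpow_add hα0, ← Real.rpow_add hβ0]
      congr 2 <;> push_cast <;> ring
    have hfn : 0 ≤ f ((x + y) / 2) := ENNReal.toReal_nonneg
    have hΘn : ∀ z, 0 ≤ Θ z := fun z => by
      simp only [hΘ]
      positivity
    by_contra hcon
    push Not at hcon
    have h4 : f ((x + y) / 2) ^ 2 < Θ ((x + y) / 2) ^ 2 := by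
      apply pow_lt_pow_left₀ hcon hfn (by norm_num)
    have h5 : Θ x * Θ y ≤ f x * f y := mul_le_mul hx' hy' (hΘn y) ((hΘn x).trans hx')
    linarith
  exact (closed_mid hSc h0S h1S hmS ⟨h0.le, h1.le⟩).2

end Vale.Agent.H21.LBM
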