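import Mathlib

open MeasureTheory Set Filter Topology
open scoped Interval

namespace Vale.Agent.H21.LBM

/-- pointwise algebra: superadditivity of the harmonic mean along increments -/
lemma harm_incr {p q x y : ℝ} (hp : 0 ≤ p) (hq : 0 ≤ q) (hx : 0 < x) (hy : 0 < y) :
    (y / (x + y)) ^ 2 * (x - p) + (x / (x + y)) ^ 2 * (y - q) ≤
      x * y / (x + y) - p * q / (p + q) := by
  have hxy : 0 < x + y := by linarith
  rcases (add_nonneg hp hq).eq_or_lt with h | h
  · have hp0 : p = 0 := by linarith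
    have hq0 : q = 0 := by linarith
    subst hp0 hq0
    simp only [sub_zero, mul_zero, add_zero, div_zero]
    apply le_of_eq
    field_simp
    ring
  · have e : x * y / (x + y) - p * q / (p + q) -
        ((y / (x + y)) ^ 2 * (x - p) + (x / (x + y)) ^ 2 * (y - q)) =
        (p * y - q * x) ^ 2 / ((x + y) ^ 2 * (p + q)) := by
      field_simp
      ring
    have : 0 ≤ (p * y - q * x) ^ 2 / ((x + y) ^ 2 * (p + q)) := by positivity
    linarith

/-- the weighted AM-GM / GM-HM step -/
lemma amgm_step {a a' b b' I K μ : ℝ} (ha : 0 < a) (haa : a ≤ a') (hb : 0 < b) (hbb : b ≤ b')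
    (hI : 0 < I) (hK : 0 < K) (h0 : 0 < μ) (h1 : μ < 1) :
    I * K / (I + K) * (1 + Real.log (a / a') + Real.log (b / b')) ≤
      a ^ (1 - μ) * b ^ μ * ((1 - μ) ^ 2 * (I / a') + μ ^ 2 * (K / b')) := by
  have ha' : 0 < a' := lt_of_lt_of_le ha haa
  have hb' : 0 < b' := lt_of_lt_of_le hb hbb
  have h1' : 0 < 1 - μ := by linarith
  -- step 1: weighted AM-GM
  have s1 := Real.geom_mean_le_arith_mean2_weighted h1'.le h0.le
    (show 0 ≤ (1 - μ) * (I / a') by positivity) (show 0 ≤ μ * (K / b') by positivity) (by ring)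
  -- step 2: GM-HM
  have s2 := Real.geom_mean_le_arith_mean2_weighted h1'.le h0.le
    (show 0 ≤ ((1 - μ) * I)⁻¹ by positivity) (show 0 ≤ (μ * K)⁻¹ by positivity) (by ring)
  have e2 : (1 - μ) * ((1 - μ) * I)⁻¹ + μ * (μ * K)⁻¹ = (I + K) / (I * K) := by
    field_simp
    ring
  rw [e2] at s2
  rw [Real.inv_rpow (by positivity), Real.inv_rpow (by positivity), ← mul_inv] at s2
  have s3 : I * K / (I + K) ≤ ((1 - μ) * I) ^ (1 - μ) * (μ * K) ^ μ := by
    have hpos : 0 < ((1 - μ) * I) ^ (1 - μ) * (μ * K) ^ μ := by positivity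
    rw [inv_le_comm₀ hpos (by positivity)] at s2
    rwa [inv_div] at s2
  have e1 : ((1 - μ) * (I / a')) ^ (1 - μ) * (μ * (K / b')) ^ μ =
      ((1 - μ) * I) ^ (1 - μ) * (μ * K) ^ μ / (a' ^ (1 - μ) * b' ^ μ) := by
    rw [← mul_div_assoc, ← mul_div_assoc, Real.div_rpow (by positivity) ha'.le,
      Real.div_rpow (by positivity) hb'.le, div_mul_div_comm]
  rw [e1] at s1
  have hJ : 0 < I * K / (I + K) := by positivity
  have s4 : I * K / (I + K) / (a' ^ (1 - μ) * b' ^ μ) ≤
      (1 - μ) ^ 2 * (I / a') + μ ^ 2 * (K / b') := by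
    calc I * K / (I + K) / (a' ^ (1 - μ) * b' ^ μ)
        ≤ ((1 - μ) * I) ^ (1 - μ) * (μ * K) ^ μ / (a' ^ (1 - μ) * b' ^ μ) := by gcongr
      _ ≤ (1 - μ) * ((1 - μ) * (I / a')) + μ * (μ * (K / b')) := s1
      _ = _ := by ring
  have hr1 : a / a' ≤ (a / a') ^ (1 - μ) := by
    have h := Real.rpow_le_rpow_of_exponent_ge (show 0 < a / a' by positivity)
      (by rwa [div_le_one ha']) (show 1 - μ ≤ 1 by linarith)
    rwa [Real.rpow_one] at h
  have hr2 : b / b' ≤ (b / b') ^ μ := by
    have h := Real.rpow_le_rpow_of_exponent_ge (show 0 < b / b' by positivity)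
      (by rwa [div_le_one hb']) h1.le
    rwa [Real.rpow_one] at h
  have s5 : 1 + Real.log (a / a') + Real.log (b / b') ≤ (a / a') * (b / b') := by
    have h := Real.log_le_sub_one_of_pos (show 0 < (a / a') * (b / b') by positivity)
    rw [Real.log_mul (by positivity) (by positivity)] at h
    linarith
  calc I * K / (I + K) * (1 + Real.log (a / a') + Real.log (b / b'))
      ≤ I * K / (I + K) * ((a / a') * (b / b')) := by gcongr
    _ ≤ I * K / (I + K) * ((a / a') ^ (1 - μ) * (b / b') ^ μ) := by gcongr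
    _ = a ^ (1 - μ) * b ^ μ * (I * K / (I + K) / (a' ^ (1 - μ) * b' ^ μ)) := by
        rw [Real.div_rpow ha.le ha'.le, Real.div_rpow hb.le hb'.le]
        ring
    _ ≤ _ := by gcongr

/-- quantiles of an antitone function -/
lemma quantiles {F : ℝ → ℝ} {R : ℝ} (hR : 0 < R) (hF0 : ∀ x, 0 ≤ F x)
    (hF : AntitoneOn F (Ici 0)) (hI : 0 < ∫ x in (0 : ℝ)..R, F x) (N : ℕ) (hN : 0 < N) :
    ∃ X : ℕ → ℝ, (∀ k, 0 ≤ X k ∧ X k ≤ R) ∧ (∀ k, 1 ≤ k → 0 < X k) ∧
      (∀ k, k < N → 0 < F (X k)) ∧
      (∀ k, k < N → X k ≤ X (k + 1)) ∧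
      (∀ k, k < N → (∫ x in (0 : ℝ)..R, F x) / N ≤ F (X k) * (X (k + 1) - X k)) := by
  set I := ∫ x in (0 : ℝ)..R, F x with hIdef
  have hint : ∀ a b, 0 ≤ a → 0 ≤ b → IntervalIntegrable F volume a b := by
    intro a b ha hb
    apply AntitoneOn.intervalIntegrable
    apply hF.mono
    intro x hx
    exact le_trans (le_min ha hb) hx.1
  have hcont : ContinuousOn (fun x => ∫ t in (0 : ℝ)..x, F t) (Icc 0 R) := by
    have := intervalIntegral.continuousOn_primitive_interval (f := F) (a := 0) (b := R)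
      (μ := volume) (by
        rw [uIcc_of_le hR.le]
        exact (hint 0 R le_rfl hR.le).1.congr_set_ae Ioc_ae_eq_Icc.symm)
    rwa [uIcc_of_le hR.le] at this
  have hNr : (0 : ℝ) < N := by exact_mod_cast hN
  have hex : ∀ k : ℕ, ∃ x, (x ∈ Icc (0 : ℝ) R) ∧ ∫ t in (0 : ℝ)..x, F t = min ((k : ℝ) / N) 1 * I := by
    intro k
    have himg := intermediate_value_Icc hR.le hcont
    have hmem : min ((k : ℝ) / N) 1 * I ∈
        Icc ((fun x => ∫ t in (0 : ℝ)..x, F t) 0) ((fun x => ∫ t in (0 : ℝ)..x, F t) R) := by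
      simp only [intervalIntegral.integral_same]
      refine ⟨by positivity, ?_⟩
      calc min ((k : ℝ) / N) 1 * I ≤ 1 * I := by gcongr; exact min_le_right _ _
        _ = I := one_mul _
    obtain ⟨x, hx, hx'⟩ := himg hmem
    exact ⟨x, hx, hx'⟩
  choose X hX hXI using hex
  have hval : ∀ k, k ≤ N → ∫ t in (0 : ℝ)..(X k), F t = (k : ℝ) / N * I := by
    intro k hk
    rw [hXI k, min_eq_left]
    rw [div_le_one hNr]
    exact_mod_cast hk
  have hpos : ∀ k, k < N → 0 < F (X k) := by
    intro k hk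
    by_contra hcon
    have hz : F (X k) = 0 := le_antisymm (not_lt.1 hcon) (hF0 _)
    have h1 : ∫ t in (X k)..R, F t = 0 := by
      have : ∫ t in (X k)..R, F t = ∫ t in (X k)..R, (0 : ℝ) := by
        apply intervalIntegral.integral_congr
        intro t ht
        rw [uIcc_of_le (hX k).2] at ht
        have := hF (show X k ∈ Ici (0 : ℝ) from (hX k).1) (show t ∈ Ici (0 : ℝ) from
          (hX k).1.trans ht.1) ht.1
        simp only
        linarith [hF0 t]
      rw [this]
      simp
    have h2 := intervalIntegral.integral_add_adjacent_intervals (hint 0 (X k) le_rfl (hX k).1)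
      (hint (X k) R (hX k).1 hR.le)
    rw [h1, add_zero, hval k hk.le, ← hIdef] at h2
    have h3 : (k : ℝ) / N < 1 := by
      rw [div_lt_one hNr]
      exact_mod_cast hk
    nlinarith
  have hmono : ∀ k, k < N → X k ≤ X (k + 1) := by
    intro k hk
    by_contra hcon
    push Not at hcon
    have h2 := intervalIntegral.integral_add_adjacent_intervals
      (hint 0 (X (k + 1)) le_rfl (hX _).1) (hint (X (k + 1)) (X k) (hX _).1 (hX _).1)
    rw [hval k hk.le, hval (k + 1) hk] at h2
    have h3 : 0 ≤ ∫ t in (X (k + 1))..(X k), F t :=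
      intervalIntegral.integral_nonneg hcon.le (fun t _ => hF0 t)
    have h4 : ((k + 1 : ℕ) : ℝ) / N * I = (k : ℝ) / N * I + 1 / N * I := by
      push_cast
      ring
    have h5 : 0 < 1 / (N : ℝ) * I := by positivity
    linarith
  refine ⟨X, fun k => ⟨(hX k).1, (hX k).2⟩, ?_, hpos, hmono, ?_⟩
  · intro k hk
    rcases (hX k).1.eq_or_lt with h | h
    · exfalso
      have := hXI k
      rw [← h, intervalIntegral.integral_same] at this
      have h6 : 0 < min ((k : ℝ) / N) 1 * I := by
        apply mul_pos _ hI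
        apply lt_min _ one_pos
        have : (0 : ℝ) < k := by exact_mod_cast hk
        positivity
      linarith
    · exact h
  · intro k hk
    have h2 := intervalIntegral.integral_add_adjacent_intervals
      (hint 0 (X k) le_rfl (hX _).1) (hint (X k) (X (k + 1)) (hX _).1 (hX _).1)
    rw [hval k hk.le, hval (k + 1) hk] at h2
    have h4 : ((k + 1 : ℕ) : ℝ) / N * I = (k : ℝ) / N * I + I / N := by
      push_cast
      ring
    have h5 : ∫ t in (X k)..(X (k + 1)), F t ≤ ∫ t in (X k)..(X (k + 1)), F (X k) := by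
      apply intervalIntegral.integral_mono_on (hmono k hk) (hint _ _ (hX _).1 (hX _).1)
        (by simp)
      intro t ht
      exact hF (hX k).1 ((hX k).1.trans ht.1) ht.1
    rw [intervalIntegral.integral_const, smul_eq_mul] at h5
    nlinarith

/-- Ball's lemma (harmonic mean inequality), discrete mass transport proof -/
theorem ball {F G H : ℝ → ℝ} {R : ℝ} (hR : 0 < R) (hF0 : ∀ x, 0 ≤ F x) (hG0 : ∀ x, 0 ≤ G x)
    (hH0 : ∀ x, 0 ≤ H x) (hF : AntitoneOn F (Ici 0)) (hG : AntitoneOn G (Ici 0))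
    (hH : AntitoneOn H (Ici 0))
    (h : ∀ x y, 0 < x → 0 < y →
      F x ^ (1 - x / (x + y)) * G y ^ (x / (x + y)) ≤ H (x * y / (x + y))) :
    (∫ x in (0 : ℝ)..R, F x) * (∫ x in (0 : ℝ)..R, G x) ≤
      (∫ x in (0 : ℝ)..R, H x) * ((∫ x in (0 : ℝ)..R, F x) + ∫ x in (0 : ℝ)..R, G x) := by
  set I := ∫ x in (0 : ℝ)..R, F x with hI
  set K := ∫ x in (0 : ℝ)..R, G x with hK
  set L := ∫ x in (0 : ℝ)..R, H x with hL
  have hI0 : 0 ≤ I := intervalIntegral.integral_nonneg hR.le (fun t _ => hF0 t)
  have hK0 : 0 ≤ K := intervalIntegral.integral_nonneg hR.le (fun t _ => hG0 t)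
  have hL0 : 0 ≤ L := intervalIntegral.integral_nonneg hR.le (fun t _ => hH0 t)
  rcases hI0.eq_or_lt with hI1 | hI1
  · rw [← hI1, zero_mul]
    positivity
  rcases hK0.eq_or_lt with hK1 | hK1
  · rw [← hK1, mul_zero]
    positivity
  have hint : ∀ a b, 0 ≤ a → 0 ≤ b → IntervalIntegrable H volume a b := by
    intro a b ha hb
    apply AntitoneOn.intervalIntegrable
    apply hH.mono
    intro x hx
    exact le_trans (le_min ha hb) hx.1
  set J := I * K / (I + K) with hJ
  have hJ0 : 0 < J := by positivity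
  set CF := Real.log (I / (R * (F 0 + 1))) with hCF
  set CG := Real.log (K / (R * (G 0 + 1))) with hCG
  have main : ∀ N : ℕ, 2 ≤ N → J * (1 - 1 / N + (CF + CG) / N - 2 * (Real.log N / N)) ≤ L := by
    intro N hN
    have hN0 : 0 < N := by omega
    have hNr : (0 : ℝ) < N := by exact_mod_cast hN0
    obtain ⟨X, hX, hXp, hXF, hXm, hXs⟩ := quantiles hR hF0 hF hI1 N hN0
    obtain ⟨Y, hY, hYp, hYG, hYm, hYs⟩ := quantiles hR hG0 hG hK1 N hN0
    rw [← hI] at hXs
    rw [← hK] at hYs
    set s : ℕ → ℝ := fun k => X k * Y k / (X k + Y k) with hs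
    have hs0 : ∀ k, 0 ≤ s k := fun k => div_nonneg (mul_nonneg (hX k).1 (hY k).1)
      (add_nonneg (hX k).1 (hY k).1)
    have step : ∀ k, k + 1 < N → s k ≤ s (k + 1) ∧
        J / N * (1 + Real.log (F (X (k + 1)) / F (X k)) + Real.log (G (Y (k + 1)) / G (Y k))) ≤
          ∫ t in (s k)..(s (k + 1)), H t := by
      intro k hk
      have hx := hXp (k + 1) (by omega)
      have hy := hYp (k + 1) (by omega)
      have hk' : k < N := by omega
      have hinc := harm_incr (hX k).1 (hY k).1 hx hy
      set x := X (k + 1)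
      set y := Y (k + 1)
      have hxy : 0 < x + y := by linarith
      set μ := x / (x + y) with hμ
      have hμ0 : 0 < μ := by positivity
      have hμ1 : μ < 1 := by
        rw [hμ, div_lt_one hxy]
        linarith
      have h1μ : y / (x + y) = 1 - μ := by
        rw [hμ]
        field_simp
        ring
      rw [h1μ] at hinc
      have hds : (1 - μ) ^ 2 * (I / N / F (X k)) + μ ^ 2 * (K / N / G (Y k)) ≤
          s (k + 1) - s k := by
        refine le_trans ?_ hinc
        have e1 : I / N / F (X k) ≤ x - X k := by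
          rw [div_le_iff₀ (hXF k hk')]
          linarith [hXs k hk']
        have e2 : K / N / G (Y k) ≤ y - Y k := by
          rw [div_le_iff₀ (hYG k hk')]
          linarith [hYs k hk']
        gcongr
      have hFk := hXF k hk'
      have hGk := hYG k hk'
      have hds0 : s k ≤ s (k + 1) := by
        have : 0 ≤ (1 - μ) ^ 2 * (I / N / F (X k)) + μ ^ 2 * (K / N / G (Y k)) := by positivity
        linarith
      refine ⟨hds0, ?_⟩
      have hHs : F x ^ (1 - μ) * G y ^ μ ≤ H (s (k + 1)) := h x y hx hy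
      have hFx : 0 < F x := hXF (k + 1) hk
      have hGy : 0 < G y := hYG (k + 1) hk
      have ham := amgm_step hFx (hF (hX k).1 (hX (k + 1)).1 (hXm k hk')) hGy
        (hG (hY k).1 (hY (k + 1)).1 (hYm k hk')) hI1 hK1 hμ0 hμ1
      have hint1 : ∫ t in (s k)..(s (k + 1)), H (s (k + 1)) ≤ ∫ t in (s k)..(s (k + 1)), H t := by
        apply intervalIntegral.integral_mono_on hds0 (by simp) (hint _ _ (hs0 _) (hs0 _))
        intro t ht
        exact hH ((hs0 k).trans ht.1) (hs0 (k + 1)) ht.2
      rw [intervalIntegral.integral_const, smul_eq_mul] at hint1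
      refine le_trans ?_ hint1
      calc J / N * (1 + Real.log (F x / F (X k)) + Real.log (G y / G (Y k)))
          = 1 / N * (I * K / (I + K) *
              (1 + Real.log (F x / F (X k)) + Real.log (G y / G (Y k)))) := by
            rw [hJ]; ring
        _ ≤ 1 / N * (F x ^ (1 - μ) * G y ^ μ * ((1 - μ) ^ 2 * (I / F (X k)) +
              μ ^ 2 * (K / G (Y k)))) := by gcongr
        _ = ((1 - μ) ^ 2 * (I / N / F (X k)) + μ ^ 2 * (K / N / G (Y k))) *
              (F x ^ (1 - μ) * G y ^ μ) := by ring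
        _ ≤ (s (k + 1) - s k) * H (s (k + 1)) := by
            apply mul_le_mul hds hHs (by positivity)
            linarith
    have tel : ∀ m, m + 1 ≤ N → J / N * (m + Real.log (F (X m) / F (X 0)) +
        Real.log (G (Y m) / G (Y 0))) ≤ ∫ t in (s 0)..(s m), H t := by
      intro m
      induction m with
      | zero =>
        intro _
        rw [div_self (hXF 0 hN0).ne', div_self (hYG 0 hN0).ne']
        simp
      | succ m ih =>
        intro hm
        have h1 := ih (by omega)
        have h2 := (step m (by omega)).2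
        rw [← intervalIntegral.integral_add_adjacent_intervals (hint (s 0) (s m) (hs0 _) (hs0 _))
          (hint (s m) (s (m + 1)) (hs0 _) (hs0 _))]
        refine le_trans ?_ (add_le_add h1 h2)
        rw [← mul_add]
        apply le_of_eq
        have f0 := hXF 0 hN0
        have f1 := hXF m (by omega)
        have f2 := hXF (m + 1) (by omega)
        have g0 := hYG 0 hN0
        have g1 := hYG m (by omega)
        have g2 := hYG (m + 1) (by omega)
        rw [Real.log_div f2.ne' f0.ne', Real.log_div f1.ne' f0.ne', Real.log_div f2.ne' f1.ne',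
          Real.log_div g2.ne' g0.ne', Real.log_div g1.ne' g0.ne', Real.log_div g2.ne' g1.ne']
        push_cast
        ring
    obtain ⟨m, rfl⟩ : ∃ m, N = m + 1 := ⟨N - 1, by omega⟩
    have h1 := tel m le_rfl
    have hsm : s m ≤ R := by
      have hxm := hXp m (by omega)
      have hym := hYp m (by omega)
      have : s m ≤ X m := by
        simp only [hs]
        rw [div_le_iff₀ (by linarith)]
        nlinarith
      exact this.trans (hX m).2
    have h2 : ∫ t in (s 0)..(s m), H t ≤ L := by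
      have hs0m : s 0 ≤ s m := by
        have : ∀ j, j + 1 ≤ m + 1 → s 0 ≤ s j := by
          intro j
          induction j with
          | zero => intro _; exact le_rfl
          | succ j ih => intro hj; exact (ih (by omega)).trans (step j (by omega)).1
        exact this m le_rfl
      rw [hL]
      apply intervalIntegral.integral_mono_interval (hs0 0) hs0m hsm
      · exact Eventually.of_forall hH0
      · exact hint 0 R le_rfl hR.le
    have tail : ∀ {Φ : ℝ → ℝ} {Z : ℕ → ℝ} {M : ℝ}, 0 < M → (∀ x, 0 ≤ Φ x) →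
        AntitoneOn Φ (Ici 0) → (∀ k, 0 ≤ Z k ∧ Z k ≤ R) → (∀ k, k < m + 1 → 0 < Φ (Z k)) →
        (∀ k, k < m + 1 → M / (m + 1 : ℕ) ≤ Φ (Z k) * (Z (k + 1) - Z k)) →
        Real.log (M / (R * (Φ 0 + 1))) - Real.log (m + 1 : ℕ) ≤
          Real.log (Φ (Z m) / Φ (Z 0)) := by
      intro Φ Z M hM hΦ0 hΦ hZ hZp hZs
      have h3 := hZs m (by omega)
      have h4 : M / (m + 1 : ℕ) ≤ Φ (Z m) * R := by
        refine h3.trans ?_
        have := hZp m (by omega)
        gcongr
        linarith [(hZ (m + 1)).2, (hZ m).1]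
      have h5 : 0 < Φ (Z 0) := hZp 0 (by omega)
      have h6 : Φ (Z 0) ≤ Φ 0 := hΦ (mem_Ici.2 (le_refl (0 : ℝ))) (hZ 0).1 (hZ 0).1
      have h7 : (0 : ℝ) < (m + 1 : ℕ) := by positivity
      rw [← Real.log_div (by have := hΦ0 0; positivity) h7.ne']
      apply Real.log_le_log
      · have := hΦ0 0
        positivity
      · have h8 := hΦ0 0
        rw [div_div, div_le_div_iff₀ (by positivity) h5]
        have h9 : M ≤ Φ (Z m) * R * (m + 1 : ℕ) := by
          rwa [div_le_iff₀ h7] at h4
        have h10 : 0 < Φ (Z m) := hZp m (by omega)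
        calc M * Φ (Z 0) ≤ (Φ (Z m) * R * (m + 1 : ℕ)) * (Φ 0 + 1) := by
              gcongr
              linarith
          _ = _ := by ring
    have t1 := tail hI1 hF0 hF hX hXF hXs
    have t2 := tail hK1 hG0 hG hY hYG hYs
    rw [← hCF] at t1
    rw [← hCG] at t2
    refine le_trans ?_ (h1.trans h2)
    have e : J * (1 - 1 / ((m + 1 : ℕ) : ℝ) + (CF + CG) / ((m + 1 : ℕ) : ℝ) -
        2 * (Real.log ((m + 1 : ℕ) : ℝ) / ((m + 1 : ℕ) : ℝ))) =
        J / ((m + 1 : ℕ) : ℝ) * ((m : ℝ) + (CF - Real.log ((m + 1 : ℕ) : ℝ)) +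
          (CG - Real.log ((m + 1 : ℕ) : ℝ))) := by
      have h7 : ((m + 1 : ℕ) : ℝ) ≠ 0 := by positivity
      field_simp
      push_cast
      ring
    rw [e]
    gcongr
  have hlim : Tendsto (fun N : ℕ => J * (1 - 1 / (N : ℝ) + (CF + CG) / N -
      2 * (Real.log N / N))) atTop (𝓝 (J * (1 - 0 + 0 - 2 * 0))) := by
    have hl : Tendsto (fun N : ℕ => Real.log (N : ℝ) / (N : ℝ)) atTop (𝓝 0) := by
      have h0 := (Real.isLittleO_log_id_atTop).tendsto_div_nhds_zero
      exact h0.comp tendsto_natCast_atTop_atTop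
    apply Tendsto.const_mul
    apply Tendsto.sub
    · apply Tendsto.add
      · apply Tendsto.sub tendsto_const_nhds
        exact tendsto_const_div_atTop_nhds_zero_nat 1
      · exact tendsto_const_div_atTop_nhds_zero_nat _
    · exact hl.const_mul 2
  have hfin : J ≤ L := by
    have := le_of_tendsto hlim (by
      filter_upwards [eventually_ge_atTop 2] with N hN
      exact main N hN)
    simpa using this
  rw [hJ, div_le_iff₀ (by positivity)] at hfin
  exact hfin

end Vale.Agent.H21.LBM
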