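import Vale.Agent.H21.LBM.LC

open MeasureTheory Set Filter Topology Metric
open scoped ENNReal NNReal

namespace Vale.Agent.H21.LBM

/-- `{y : |y_i| ≤ h_i, |∑ a_i y_i| ≤ c}` -/
def bx {n : ℕ} (a h : Fin n → ℝ) (c : ℝ) : Set (Fin n → ℝ) :=
  {y | (∀ i, |y i| ≤ h i) ∧ |∑ i, a i * y i| ≤ c}

lemma bx_closed {n : ℕ} (a h : Fin n → ℝ) (c : ℝ) : IsClosed (bx a h c) := by
  have e : bx a h c = (⋂ i, {y : Fin n → ℝ | |y i| ≤ h i}) ∩ {y | |∑ i, a i * y i| ≤ c} := by
    ext y
    simp [bx]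
  rw [e]
  apply IsClosed.inter
  · exact isClosed_iInter fun i => isClosed_le (by fun_prop) continuous_const
  · exact isClosed_le (by fun_prop) continuous_const

lemma preimage_vol {n : ℕ} (M : Matrix (Fin n) (Fin n) ℝ) (hM : M.det ≠ 0)
    (S : Set (Fin n → ℝ)) (hS : MeasurableSet S) :
    (volume ((fun y => M.mulVec y) ⁻¹' S)).toReal = |M.det|⁻¹ * (volume S).toReal := by
  have h := Real.map_matrix_volume_pi_eq_smul_volume_pi hM
  have h1 : ((Measure.map (Matrix.toLin' M) volume) S).toReal =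
      ((ENNReal.ofReal |M.det⁻¹| • (volume : Measure (Fin n → ℝ))) S).toReal := by rw [h]
  rw [Measure.map_apply (LinearMap.continuous_on_pi _).measurable hS] at h1
  simp only [Measure.smul_apply, smul_eq_mul, ENNReal.toReal_mul] at h1
  rw [ENNReal.toReal_ofReal (abs_nonneg _), abs_inv] at h1
  exact h1

lemma vol_bx {n : ℕ} (a h : Fin n → ℝ) (hh : ∀ i, 0 < h i) (c : ℝ) :
    (volume (bx a h c)).toReal = (∏ i, h i) * PP (fun i => a i * h i) c := by
  have hd : (Matrix.diagonal h).det ≠ 0 := by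
    rw [Matrix.det_diagonal]
    exact Finset.prod_ne_zero_iff.2 fun i _ => (hh i).ne'
  have h1 := preimage_vol (Matrix.diagonal h) hd (bx a h c) (bx_closed a h c).measurableSet
  have e : (fun y => (Matrix.diagonal h).mulVec y) ⁻¹' (bx a h c) = cs (fun i => a i * h i) c := by
    ext y
    simp only [mem_preimage, bx, cs, mem_ofPred_eq, Matrix.mulVec_diagonal]
    have e1 : ∀ i, |h i * y i| ≤ h i ↔ |y i| ≤ 1 := by
      intro i
      rw [abs_mul, abs_of_pos (hh i)]
      constructor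
      · intro h2
        by_contra h3
        push Not at h3
        nlinarith [hh i]
      · intro h2
        nlinarith [hh i]
    have e2 : ∑ i, a i * (h i * y i) = ∑ i, a i * h i * y i :=
      Finset.sum_congr rfl fun i _ => by ring
    simp only [e1, e2]
  have hp : 0 < ∏ i, h i := Finset.prod_pos fun i _ => hh i
  rw [e, Matrix.det_diagonal, abs_of_pos hp] at h1
  rw [PP, h1]
  field_simp

theorem box_lc {m : ℕ} (a h g : Fin (m + 1) → ℝ) {c d l : ℝ} (hh : ∀ i, 0 < h i)
    (hg : ∀ i, 0 < g i) (hc : 0 < c) (hd : 0 < d) (hl0 : 0 < l) (hl1 : l < 1) :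
    (volume (bx a h c)).toReal ^ (1 - l) * (volume (bx a g d)).toReal ^ l ≤
      (volume (bx a (fun i => h i ^ (1 - l) * g i ^ l) (c ^ (1 - l) * d ^ l))).toReal := by
  have hhg : ∀ i, 0 < h i ^ (1 - l) * g i ^ l := fun i => by
    have := hh i
    have := hg i
    positivity
  have hcd : 0 < c ^ (1 - l) * d ^ l := by positivity
  rw [vol_bx a h hh, vol_bx a g hg, vol_bx a _ hhg]
  have key := NN_log a h g hh hg hc hd hl0 hl1
  have hph : 0 < ∏ i, h i := Finset.prod_pos fun i _ => hh i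
  have hpg : 0 < ∏ i, g i := Finset.prod_pos fun i _ => hg i
  have hP1 := PP_pos (fun i => a i * h i) hc
  have hP2 := PP_pos (fun i => a i * g i) hd
  have hP3 := PP_pos (fun i => a i * (h i ^ (1 - l) * g i ^ l)) hcd
  have hprod : ∏ i, (h i ^ (1 - l) * g i ^ l) = (∏ i, h i) ^ (1 - l) * (∏ i, g i) ^ l := by
    rw [Finset.prod_mul_distrib, Real.finsetProd_rpow _ _ (fun i _ => (hh i).le),
      Real.finsetProd_rpow _ _ (fun i _ => (hg i).le)]
  rw [hprod, Real.mul_rpow hph.le hP1.le, Real.mul_rpow hpg.le hP2.le]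
  have key2 : PP (fun i => a i * h i) c ^ (1 - l) * PP (fun i => a i * g i) d ^ l ≤
      PP (fun i => a i * (h i ^ (1 - l) * g i ^ l)) (c ^ (1 - l) * d ^ l) := by
    rw [NN, NN, NN, Real.div_rpow hc.le hP1.le, Real.div_rpow hd.le hP2.le, div_mul_div_comm,
      div_le_div_iff₀ hP3 (by positivity)] at key
    exact le_of_mul_le_mul_left key hcd
  calc (∏ i, h i) ^ (1 - l) * PP (fun i => a i * h i) c ^ (1 - l) *
        ((∏ i, g i) ^ l * PP (fun i => a i * g i) d ^ l)
      = ((∏ i, h i) ^ (1 - l) * (∏ i, g i) ^ l) *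
        (PP (fun i => a i * h i) c ^ (1 - l) * PP (fun i => a i * g i) d ^ l) := by ring
    _ ≤ _ := by gcongr

end Vale.Agent.H21.LBM
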