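import Vale.Agent.H21.LBM.Sec

open MeasureTheory Set Filter Topology Metric
open scoped ENNReal NNReal

namespace Vale.Agent.H21.LBM

/-- `{y ∈ [-1,1]^n : |⟨w,y⟩| ≤ c}` -/
def cs {n : ℕ} (w : Fin n → ℝ) (c : ℝ) : Set (Fin n → ℝ) :=
  {y | (∀ i, |y i| ≤ 1) ∧ |∑ i, w i * y i| ≤ c}

/-- its volume -/
noncomputable def PP {n : ℕ} (w : Fin n → ℝ) (c : ℝ) : ℝ := (volume (cs w c)).toReal

lemma cs_compact {n : ℕ} (w : Fin n → ℝ) (c : ℝ) : IsCompact (cs w c) := by
  have h1 : IsCompact (Set.pi univ (fun _ : Fin n => Icc (-1 : ℝ) 1)) :=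
    isCompact_univ_pi (fun _ => isCompact_Icc)
  apply h1.of_isClosed_subset
  · have e : cs w c = (⋂ i, {y : Fin n → ℝ | |y i| ≤ 1}) ∩ {y | |∑ i, w i * y i| ≤ c} := by
      ext y
      simp [cs]
    rw [e]
    apply IsClosed.inter
    · exact isClosed_iInter fun i => isClosed_le (by fun_prop) continuous_const
    · exact isClosed_le (by fun_prop) continuous_const
  · intro y hy i _
    exact abs_le.1 (hy.1 i)

lemma cs_convex {n : ℕ} (w : Fin n → ℝ) (c : ℝ) : Convex ℝ (cs w c) := by
  intro a ha b hb s t hs ht hst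
  constructor
  · intro i
    simp only [Pi.add_apply, Pi.smul_apply, smul_eq_mul]
    calc |s * a i + t * b i| ≤ |s * a i| + |t * b i| := abs_add_le _ _
      _ = s * |a i| + t * |b i| := by rw [abs_mul, abs_mul, abs_of_nonneg hs, abs_of_nonneg ht]
      _ ≤ s * 1 + t * 1 := by gcongr; exacts [ha.1 i, hb.1 i]
      _ = 1 := by linarith
  · have e : ∑ i, w i * (s • a + t • b) i = s * (∑ i, w i * a i) + t * ∑ i, w i * b i := by
      simp only [Pi.add_apply, Pi.smul_apply, smul_eq_mul, Finset.mul_sum]
      rw [← Finset.sum_add_distrib]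
      apply Finset.sum_congr rfl
      intro i _
      ring
    rw [e]
    calc |s * (∑ i, w i * a i) + t * ∑ i, w i * b i|
        ≤ |s * (∑ i, w i * a i)| + |t * ∑ i, w i * b i| := abs_add_le _ _
      _ = s * |∑ i, w i * a i| + t * |∑ i, w i * b i| := by
          rw [abs_mul, abs_mul, abs_of_nonneg hs, abs_of_nonneg ht]
      _ ≤ s * c + t * c := by gcongr; exacts [ha.2, hb.2]
      _ = c := by rw [← add_mul, hst, one_mul]

lemma cs_symm {n : ℕ} (w : Fin n → ℝ) (c : ℝ) : ∀ y ∈ cs w c, -y ∈ cs w c := by
  intro y hy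
  constructor
  · intro i
    rw [Pi.neg_apply, abs_neg]
    exact hy.1 i
  · have : ∑ i, w i * (-y) i = -∑ i, w i * y i := by simp
    rw [this, abs_neg]
    exact hy.2

lemma PP_pos {n : ℕ} (w : Fin n → ℝ) {c : ℝ} (hc : 0 < c) : 0 < PP w c := by
  apply ENNReal.toReal_pos _ (cs_compact w c).measure_lt_top.ne
  set U : Set (Fin n → ℝ) := (⋂ i, {y : Fin n → ℝ | |y i| < 1}) ∩ {y | |∑ i, w i * y i| < c}
  have hUo : IsOpen U := by
    apply IsOpen.inter
    · exact isOpen_iInter_of_finite fun i => isOpen_lt (by fun_prop) continuous_const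
    · exact isOpen_lt (by fun_prop) continuous_const
  have hU0 : (0 : Fin n → ℝ) ∈ U := by
    refine ⟨?_, ?_⟩
    · simp
    · simpa using hc
  have hsub : U ⊆ cs w c := by
    rintro y ⟨h1, h2⟩
    simp only [mem_iInter, mem_ofPred_eq] at h1 h2
    exact ⟨fun i => (h1 i).le, h2.le⟩
  have := hUo.measure_pos volume ⟨0, hU0⟩
  exact (this.trans_le (measure_mono hsub)).ne'

lemma cs_smul {n : ℕ} (w : Fin n → ℝ) (c : ℝ) {s : ℝ} (hs : 0 < s) :
    cs (s • w) (s * c) = cs w c := by
  ext y
  simp only [cs, mem_ofPred_eq, Pi.smul_apply, smul_eq_mul]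
  have : ∑ i, s * w i * y i = s * ∑ i, w i * y i := by
    rw [Finset.mul_sum]
    exact Finset.sum_congr rfl fun i _ => by ring
  rw [this, abs_mul, abs_of_pos hs, mul_le_mul_iff_right₀ hs]

lemma PP_smul {n : ℕ} (w : Fin n → ℝ) (c : ℝ) {s : ℝ} (hs : 0 < s) :
    PP (s • w) (s * c) = PP w c := by rw [PP, cs_smul w c hs, PP]

/-- Busemann's theorem for the cube, slab form: `(w,c) ↦ c / vol{y ∈ [-1,1]^n : |⟨w,y⟩| ≤ c}`
is subadditive. -/
theorem busemann {m : ℕ} (w v : Fin (m + 1) → ℝ) {c d : ℝ} (hc : 0 < c) (hd : 0 < d) :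
    (c + d) * PP w c * PP v d ≤ PP (w + v) (c + d) * (c * PP v d + d * PP w c) := by
  by_cases hz : c • v - d • w = 0
  · have hv : v = (d / c) • w := by
      have h1 : c • v = d • w := sub_eq_zero.1 hz
      rw [div_eq_inv_mul, mul_smul, ← h1, smul_smul, inv_mul_cancel₀ hc.ne', one_smul]
    have e1 : PP v d = PP w c := by
      have := PP_smul w c (s := d / c) (by positivity)
      rwa [← hv, div_mul_cancel₀ _ hc.ne'] at this
    have e2 : PP (w + v) (c + d) = PP w c := by
      have := PP_smul w c (s := (c + d) / c) (by positivity)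
      rw [div_mul_cancel₀ _ hc.ne'] at this
      rw [← this]
      congr 1
      rw [hv, add_div, div_self hc.ne', add_smul, one_smul]
    rw [e1, e2]
    apply le_of_eq
    ring
  obtain ⟨e, he⟩ := exists_slice hz
  obtain ⟨κ, hκ, hκA⟩ := exists_const e
  set ρ := (∑ i, |(c • v - d • w) i|) + 1 with hρ
  have hρ0 : 0 < ρ := by positivity
  have hbound : ∀ (u : Fin (m + 1) → ℝ) (b : ℝ), ∀ y ∈ cs u b, (e y).1 < ρ := by
    intro u b y hy
    rw [he]
    have : ∑ i, (c • v - d • w) i * y i ≤ ∑ i, |(c • v - d • w) i| := by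
      apply Finset.sum_le_sum
      intro i _
      calc (c • v - d • w) i * y i ≤ |(c • v - d • w) i * y i| := le_abs_self _
        _ = |(c • v - d • w) i| * |y i| := abs_mul _ _
        _ ≤ |(c • v - d • w) i| * 1 := by gcongr; exact hy.1 i
        _ = _ := mul_one _
    linarith
  set T := ρ / c + ρ / d with hT
  have hT0 : 0 < T := by positivity
  have hcT : ρ ≤ c * T := by
    rw [hT, mul_add, mul_div_cancel₀ _ hc.ne']
    have : 0 ≤ c * (ρ / d) := by positivity
    linarith
  have hdT : ρ ≤ d * T := by
    rw [hT, mul_add, mul_div_cancel₀ _ hd.ne']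
    have : 0 ≤ d * (ρ / c) := by positivity
    linarith
  have hcdT : ρ ≤ (c + d) * T := by
    rw [add_mul]
    linarith
  have val : ∀ (u : Fin (m + 1) → ℝ) (b : ℝ) {q : ℝ}, 0 < q → ρ ≤ q * T →
      PP u b = κ * (q * ∫ x in (0 : ℝ)..T, sig e (cs u b) (q * x)) := by
    intro u b q hq hqT
    have h1 := hκA (cs u b) (cs_compact u b) (cs_convex u b) (cs_symm u b) (q * T)
      (by positivity) (fun y hy => (hbound u b y hy).trans_le hqT)
    have h2 := intervalIntegral.integral_comp_mul_left (a := (0 : ℝ)) (b := T)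
      (sig e (cs u b)) hq.ne'
    rw [mul_zero, smul_eq_mul] at h2
    rw [PP, h1, h2, ← mul_assoc q, mul_inv_cancel₀ hq.ne', one_mul]
  have v0 := val w c hc hcT
  have v1 := val v d hd hdT
  have v2 := val (w + v) (c + d) (add_pos hc hd) hcdT
  have anti : ∀ (u : Fin (m + 1) → ℝ) (b : ℝ) {q : ℝ}, 0 < q →
      AntitoneOn (fun x => sig e (cs u b) (q * x)) (Ici 0) := by
    intro u b q hq x hx y hy hxy
    exact sig_antitone e (cs_compact u b) (cs_convex u b) (cs_symm u b)
      (mul_nonneg hq.le hx) (mul_nonneg hq.le hy) (by gcongr)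
  have key := ball (F := fun x => sig e (cs w c) (c * x)) (G := fun x => sig e (cs v d) (d * x))
    (H := fun x => sig e (cs (w + v) (c + d)) ((c + d) * x)) hT0
    (fun x => sig_nonneg e _ _) (fun x => sig_nonneg e _ _) (fun x => sig_nonneg e _ _)
    (anti w c hc) (anti v d hd) (anti (w + v) (c + d) (add_pos hc hd))
    (fun x y hx hy => by
      have hxy : 0 < x + y := by linarith
      apply sig_comb e (cs_compact _ _) (cs_compact _ _) (cs_compact _ _) (cs_convex _ _)
        (cs_convex _ _) (by positivity) (by rw [div_lt_one hxy]; linarith)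
      · field_simp
        ring
      · intro a ha b hb hea heb
        rw [he] at hea heb
        set μ := x / (x + y) with hμ
        have hμ0 : 0 ≤ μ := by positivity
        have hμ1 : μ ≤ 1 := by rw [hμ, div_le_one hxy]; linarith
        have hμx : (1 - μ) * x = μ * y := by
          rw [hμ]
          field_simp
          ring
        constructor
        · intro i
          simp only [Pi.add_apply, Pi.smul_apply, smul_eq_mul]
          calc |(1 - μ) * a i + μ * b i| ≤ |(1 - μ) * a i| + |μ * b i| := abs_add_le _ _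
            _ = (1 - μ) * |a i| + μ * |b i| := by
                rw [abs_mul, abs_mul, abs_of_nonneg hμ0, abs_of_nonneg (by linarith : 0 ≤ 1 - μ)]
            _ ≤ (1 - μ) * 1 + μ * 1 := by
                have h1 := ha.1 i
                have h2 := hb.1 i
                have h3 : 0 ≤ 1 - μ := by linarith
                gcongr
            _ = 1 := by ring
        · have hza : c * (∑ i, v i * a i) - d * (∑ i, w i * a i) = c * x := by
            rw [← hea, Finset.mul_sum, Finset.mul_sum, ← Finset.sum_sub_distrib]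
            apply Finset.sum_congr rfl
            intro i _
            simp only [Pi.sub_apply, Pi.smul_apply, smul_eq_mul]
            ring
          have hzb : c * (∑ i, v i * b i) - d * (∑ i, w i * b i) = d * y := by
            rw [← heb, Finset.mul_sum, Finset.mul_sum, ← Finset.sum_sub_distrib]
            apply Finset.sum_congr rfl
            intro i _
            simp only [Pi.sub_apply, Pi.smul_apply, smul_eq_mul]
            ring
          have hlin : ∑ i, (w + v) i * ((1 - μ) • a + μ • b) i =
              (1 - μ) * (∑ i, w i * a i + ∑ i, v i * a i) +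
                μ * (∑ i, w i * b i + ∑ i, v i * b i) := by
            simp only [Pi.add_apply, Pi.smul_apply, smul_eq_mul]
            rw [← Finset.sum_add_distrib, ← Finset.sum_add_distrib, Finset.mul_sum,
              Finset.mul_sum, ← Finset.sum_add_distrib]
            apply Finset.sum_congr rfl
            intro i _
            ring
          rw [hlin]
          set p := ∑ i, w i * a i
          set p' := ∑ i, v i * a i
          set q := ∑ i, v i * b i
          set q' := ∑ i, w i * b i
          have hp : |p| ≤ c := ha.2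
          have hq : |q| ≤ d := hb.2
          have e1 : p' = x + d / c * p := by
            field_simp
            linarith
          have e2 : q' = c / d * q - y := by
            field_simp
            linarith
          have e3 : (1 - μ) * (p + p') + μ * (q' + q) =
              (1 - μ) * ((c + d) / c) * p + μ * ((c + d) / d) * q := by
            rw [e1, e2]
            have : (1 - μ) * (p + (x + d / c * p)) + μ * (c / d * q - y + q) =
                (1 - μ) * ((1 + d / c) * p) + μ * ((1 + c / d) * q) + ((1 - μ) * x - μ * y) := by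
              ring
            rw [this, hμx, sub_self, add_zero]
            field_simp
            ring
          rw [e3]
          have h3 : 0 ≤ 1 - μ := by linarith
          calc |(1 - μ) * ((c + d) / c) * p + μ * ((c + d) / d) * q|
              ≤ |(1 - μ) * ((c + d) / c) * p| + |μ * ((c + d) / d) * q| := abs_add_le _ _
            _ = (1 - μ) * ((c + d) / c) * |p| + μ * ((c + d) / d) * |q| := by
                rw [abs_mul, abs_mul _ q, abs_of_nonneg (by positivity),
                  abs_of_nonneg (a := μ * ((c + d) / d)) (by positivity)]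
            _ ≤ (1 - μ) * ((c + d) / c) * c + μ * ((c + d) / d) * d := by gcongr
            _ = c + d := by
                field_simp
                ring)
  set I0 := ∫ x in (0 : ℝ)..T, sig e (cs w c) (c * x)
  set I1 := ∫ x in (0 : ℝ)..T, sig e (cs v d) (d * x)
  set I2 := ∫ x in (0 : ℝ)..T, sig e (cs (w + v) (c + d)) ((c + d) * x)
  rw [v0, v1, v2]
  have h8 : 0 ≤ κ ^ 2 * (c * d * (c + d)) := by positivity
  have h9 := mul_le_mul_of_nonneg_left key h8
  calc (c + d) * (κ * (c * I0)) * (κ * (d * I1)) = κ ^ 2 * (c * d * (c + d)) * (I0 * I1) := by ring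
    _ ≤ κ ^ 2 * (c * d * (c + d)) * (I2 * (I0 + I1)) := h9
    _ = _ := by ring

end Vale.Agent.H21.LBM
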