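import Vale.Agent.H21.LBM.Box

open MeasureTheory Set Filter Topology Metric
open scoped ENNReal NNReal

namespace Vale.Agent.H21.LBM

/-- the symmetric polytope `{x : |⟨u_i,x⟩| ≤ h_i for all i}` -/
def poly {n N : ℕ} (u : Fin N → Fin n → ℝ) (h : Fin N → ℝ) : Set (Fin n → ℝ) :=
  {x | ∀ i, |∑ k, u i k * x k| ≤ h i}

lemma poly_closed {n N : ℕ} (u : Fin N → Fin n → ℝ) (h : Fin N → ℝ) : IsClosed (poly u h) := by
  have e : poly u h = ⋂ i, {x : Fin n → ℝ | |∑ k, u i k * x k| ≤ h i} := by
    ext y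
    simp [poly]
  rw [e]
  exact isClosed_iInter fun i => isClosed_le (by fun_prop) continuous_const

/-- reduction to the box form -/
theorem poly_box {m : ℕ} (u : Fin (m + 2) → Fin (m + 1) → ℝ)
    (hu : Submodule.span ℝ (Set.range u) = ⊤) :
    ∃ (j : Fin (m + 2)) (κ : ℝ) (a : Fin (m + 1) → ℝ), 0 < κ ∧
      ∀ h : Fin (m + 2) → ℝ, (volume (poly u h)).toReal =
        κ * (volume (bx a (fun i => h (j.succAbove i)) (h j))).toReal := by
  have hdep : ¬ LinearIndependent ℝ u := by
    intro hli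
    have := hli.fintype_card_le_finrank
    simp at this
  obtain ⟨c, hc, j, hj⟩ := Fintype.not_linearIndependent_iff.1 hdep
  set a : Fin (m + 1) → ℝ := fun i => -(c (j.succAbove i) / c j) with ha
  have huj : u j = ∑ i, a i • u (j.succAbove i) := by
    rw [Fin.sum_univ_succAbove _ j] at hc
    have h1 : c j • u j = -∑ i, c (j.succAbove i) • u (j.succAbove i) :=
      eq_neg_of_add_eq_zero_left hc
    have h2 : u j = (c j)⁻¹ • (c j • u j) := by rw [smul_smul, inv_mul_cancel₀ hj, one_smul]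
    rw [h2, h1, smul_neg, Finset.smul_sum, ← Finset.sum_neg_distrib]
    refine Finset.sum_congr rfl fun i _ => ?_
    rw [smul_smul, ha, ← neg_smul]
    congr 1
    ring
  set A : Matrix (Fin (m + 1)) (Fin (m + 1)) ℝ := Matrix.of fun i k => u (j.succAbove i) k with hA
  have hspan : ⊤ ≤ Submodule.span ℝ (Set.range fun i => u (j.succAbove i)) := by
    rw [← hu, Submodule.span_le]
    rintro _ ⟨i, rfl⟩
    rcases eq_or_ne i j with rfl | hij
    · rw [huj]
      exact Submodule.sum_mem _ fun i _ => Submodule.smul_mem _ _ (Submodule.subset_span ⟨i, rfl⟩)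
    · obtain ⟨k, rfl⟩ := Fin.exists_succAbove_eq hij
      exact Submodule.subset_span ⟨k, rfl⟩
  have hli : LinearIndependent ℝ (fun i => u (j.succAbove i)) :=
    linearIndependent_of_top_le_span_of_card_eq_finrank hspan (by simp)
  have hdet : A.det ≠ 0 := by
    have h1 : IsUnit A := by
      rw [← Matrix.linearIndependent_rows_iff_isUnit]
      exact hli
    exact ((Matrix.isUnit_iff_isUnit_det A).1 h1).ne_zero
  refine ⟨j, |A.det|⁻¹, a, by positivity, fun h => ?_⟩
  rw [← preimage_vol A hdet _ (bx_closed _ _ _).measurableSet]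
  congr 2
  ext x
  simp only [poly, mem_ofPred_eq, mem_preimage, bx]
  have e1 : ∀ i, (A.mulVec x) i = ∑ k, u (j.succAbove i) k * x k := by
    intro i
    simp [Matrix.mulVec, dotProduct, hA]
  have e2 : ∑ i, a i * (A.mulVec x) i = ∑ k, u j k * x k := by
    simp only [e1]
    rw [huj]
    simp only [Finset.sum_apply, Pi.smul_apply, smul_eq_mul, Finset.mul_sum, Finset.sum_mul]
    rw [Finset.sum_comm]
    refine Finset.sum_congr rfl fun k _ => Finset.sum_congr rfl fun i _ => by ring
  rw [e2]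
  simp only [e1]
  rw [Fin.forall_iff_succAbove j]
  tauto

theorem poly_pos {m : ℕ} (u : Fin (m + 2) → Fin (m + 1) → ℝ)
    (hu : Submodule.span ℝ (Set.range u) = ⊤) (h : Fin (m + 2) → ℝ) (hh : ∀ i, 0 < h i) :
    0 < (volume (poly u h)).toReal := by
  obtain ⟨j, κ, a, hκ, H⟩ := poly_box u hu
  rw [H, vol_bx _ _ (fun i => hh _)]
  have h1 : 0 < ∏ i, h (j.succAbove i) := Finset.prod_pos fun i _ => hh _
  have h2 := PP_pos (fun i => a i * h (j.succAbove i)) (hh j)
  positivity

/-- logarithmic Brunn-Minkowski for `n+1` pairs of normals in dimension `n` -/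
theorem poly_lc {m : ℕ} (u : Fin (m + 2) → Fin (m + 1) → ℝ)
    (hu : Submodule.span ℝ (Set.range u) = ⊤) (h g : Fin (m + 2) → ℝ) (hh : ∀ i, 0 < h i)
    (hg : ∀ i, 0 < g i) {l : ℝ} (hl0 : 0 < l) (hl1 : l < 1) :
    (volume (poly u h)).toReal ^ (1 - l) * (volume (poly u g)).toReal ^ l ≤
      (volume (poly u (fun i => h i ^ (1 - l) * g i ^ l))).toReal := by
  obtain ⟨j, κ, a, hκ, H⟩ := poly_box u hu
  rw [H, H, H, Real.mul_rpow hκ.le ENNReal.toReal_nonneg,
    Real.mul_rpow hκ.le ENNReal.toReal_nonneg]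
  have h1 := box_lc a (fun i => h (j.succAbove i)) (fun i => g (j.succAbove i)) (c := h j)
    (d := g j) (fun i => hh _) (fun i => hg _) (hh j) (hg j) hl0 hl1
  have h2 : κ ^ (1 - l) * κ ^ l = κ := by
    rw [← Real.rpow_add hκ]
    simp
  calc κ ^ (1 - l) * (volume (bx a (fun i => h (j.succAbove i)) (h j))).toReal ^ (1 - l) *
        (κ ^ l * (volume (bx a (fun i => g (j.succAbove i)) (g j))).toReal ^ l)
      = (κ ^ (1 - l) * κ ^ l) * ((volume (bx a (fun i => h (j.succAbove i)) (h j))).toReal ^ (1 - l)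
        * (volume (bx a (fun i => g (j.succAbove i)) (g j))).toReal ^ l) := by ring
    _ ≤ _ := by
        rw [h2]
        gcongr

end Vale.Agent.H21.LBM
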