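import Vale.Agent.H21.LBM.Bus

open MeasureTheory Set Filter Topology Metric
open scoped ENNReal NNReal

namespace Vale.Agent.H21.LBM

/-- Busemann norm -/
noncomputable def NN {n : ℕ} (w : Fin n → ℝ) (c : ℝ) : ℝ := c / PP w c

lemma NN_pos {n : ℕ} (w : Fin n → ℝ) {c : ℝ} (hc : 0 < c) : 0 < NN w c := div_pos hc (PP_pos w hc)

lemma NN_smul {n : ℕ} (w : Fin n → ℝ) (c : ℝ) {s : ℝ} (hs : 0 < s) :
    NN (s • w) (s * c) = s * NN w c := by
  rw [NN, PP_smul w c hs, NN, mul_div_assoc]

lemma NN_add {m : ℕ} (w v : Fin (m + 1) → ℝ) {c d : ℝ} (hc : 0 < c) (hd : 0 < d) :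
    NN (w + v) (c + d) ≤ NN w c + NN v d := by
  have h := busemann w v hc hd
  have h0 := PP_pos w hc
  have h1 := PP_pos v hd
  have h2 := PP_pos (w + v) (add_pos hc hd)
  rw [NN, NN, NN, div_add_div _ _ h0.ne' h1.ne', div_le_div_iff₀ h2 (by positivity)]
  linarith

lemma NN_combo {m : ℕ} (w v : Fin (m + 1) → ℝ) {c d s t : ℝ} (hc : 0 < c) (hd : 0 < d)
    (hs : 0 < s) (ht : 0 < t) :
    NN (s • w + t • v) (s * c + t * d) ≤ s * NN w c + t * NN v d := by
  rw [← NN_smul w c hs, ← NN_smul v d ht]
  exact NN_add _ _ (by positivity) (by positivity)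

/-- sign changes do not change the volume -/
lemma PP_sign {n : ℕ} (w ε : Fin n → ℝ) (hε : ∀ i, ε i = 1 ∨ ε i = -1) (c : ℝ) :
    PP (fun i => ε i * w i) c = PP w c := by
  have hmp : MeasurePreserving (fun (y : Fin n → ℝ) i => ε i * y i) volume volume := by
    apply volume_preserving_pi (f := fun i (x : ℝ) => ε i * x)
    intro i
    rcases hε i with h | h
    · simp only [h, one_mul]
      exact MeasurePreserving.id _
    · simp only [h, neg_one_mul]
      exact Measure.measurePreserving_neg _
  rw [PP, PP]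
  congr 1
  have e : cs (fun i => ε i * w i) c = (fun (y : Fin n → ℝ) i => ε i * y i) ⁻¹' (cs w c) := by
    ext y
    simp only [cs, mem_ofPred_eq, mem_preimage]
    have h1 : ∀ i, |ε i * y i| = |y i| := by
      intro i
      rcases hε i with h | h <;> simp [h]
    have h2 : ∑ i, ε i * w i * y i = ∑ i, w i * (ε i * y i) :=
      Finset.sum_congr rfl fun i _ => by ring
    simp only [h1, h2]
  rw [e, hmp.measure_preimage (cs_compact w c).measurableSet.nullMeasurableSet]

lemma NN_update {m : ℕ} (W : Fin (m + 1) → ℝ) {c : ℝ} (hc : 0 < c) (j : Fin (m + 1)) {s : ℝ}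
    (hs : |s| ≤ |W j|) : NN (Function.update W j s) c ≤ NN W c := by
  set W' : Fin (m + 1) → ℝ := Function.update W j (-W j) with hW'
  have hWW : NN W' c = NN W c := by
    have : W' = fun i => (if i = j then (-1 : ℝ) else 1) * W i := by
      funext i
      by_cases h : i = j
      · subst h
        simp [hW']
      · simp [hW', h]
    rw [NN, this, PP_sign _ _ (fun i => by by_cases h : i = j <;> simp [h]), NN]
  have hneg : ∀ x y : ℝ, |x| = |y| → x = y ∨ x = -y := fun x y h => abs_eq_abs.1 h
  rcases hs.eq_or_lt with h | h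
  · rcases hneg _ _ h with rfl | rfl
    · rw [Function.update_eq_self]
    · exact hWW.le
  have hWj : W j ≠ 0 := by
    intro h0
    rw [h0, abs_zero] at h
    exact absurd h (not_lt.2 (abs_nonneg s))
  set t := s / W j with ht
  have ht1 : |t| < 1 := by
    rw [ht, abs_div, div_lt_one (abs_pos.2 hWj)]
    exact h
  obtain ⟨ht2, ht3⟩ := abs_lt.1 ht1
  have key := NN_combo W W' hc hc (s := (1 + t) / 2) (t := (1 - t) / 2) (by linarith) (by linarith)
  have e1 : ((1 + t) / 2) • W + ((1 - t) / 2) • W' = Function.update W j s := by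
    funext i
    by_cases h : i = j
    · subst h
      simp only [hW', Pi.add_apply, Pi.smul_apply, smul_eq_mul, Function.update_self]
      have : t * W i = s := by rw [ht, div_mul_cancel₀ _ hWj]
      linarith
    · simp only [hW', Pi.add_apply, Pi.smul_apply, smul_eq_mul, Function.update_of_ne h]
      ring
  have e2 : (1 + t) / 2 * c + (1 - t) / 2 * c = c := by ring
  rw [e1, e2, hWW] at key
  linarith

lemma NN_mono_w {m : ℕ} (w W : Fin (m + 1) → ℝ) {c : ℝ} (hc : 0 < c) (h : ∀ i, |w i| ≤ |W i|) :
    NN w c ≤ NN W c := by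
  classical
  have key : ∀ S : Finset (Fin (m + 1)), NN (S.piecewise w W) c ≤ NN W c := by
    intro S
    induction S using Finset.induction_on with
    | empty => simp
    | insert j S hj ih =>
      rw [Finset.piecewise_insert]
      refine (NN_update _ hc j ?_).trans ih
      rw [Finset.piecewise_eq_of_notMem _ _ _ hj]
      exact h j
  have := key Finset.univ
  rwa [Finset.piecewise_univ] at this

lemma NN_mono_c {m : ℕ} (w : Fin (m + 1) → ℝ) {c c' : ℝ} (hc : 0 < c) (hcc : c ≤ c') :
    NN w c ≤ NN w c' := by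
  have hc' : 0 < c' := hc.trans_le hcc
  rw [NN, NN, div_le_div_iff₀ (PP_pos w hc) (PP_pos w hc')]
  by_cases hw : w = 0
  · have : ∀ b : ℝ, 0 < b → cs w b = cs w 1 := by
      intro b hb
      ext y
      simp [cs, hw, hb.le]
    rw [PP, PP, this c hc, this c' hc']
    gcongr
  obtain ⟨e, he⟩ := exists_slice hw
  obtain ⟨κ, hκ, hκA⟩ := exists_const e
  set C : Set (Fin (m + 1) → ℝ) := cs 0 1 with hC
  have anti : AntitoneOn (sig e C) (Ici 0) :=
    sig_antitone e (cs_compact _ _) (cs_convex _ _) (cs_symm _ _)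
  have hint : ∀ a b, 0 ≤ a → 0 ≤ b → IntervalIntegrable (sig e C) volume a b := by
    intro a b ha hb
    apply AntitoneOn.intervalIntegrable
    apply anti.mono
    intro x hx
    exact le_trans (le_min ha hb) hx.1
  have val : ∀ b : ℝ, 0 < b → PP w b = κ * ∫ x in (0 : ℝ)..b, sig e C x := by
    intro b hb
    have h1 := hκA (cs w b) (cs_compact w b) (cs_convex w b) (cs_symm w b) (b + 1) (by linarith)
      (fun y hy => by
        rw [he]
        have := (le_abs_self _).trans hy.2
        linarith)
    rw [PP, h1]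
    congr 1
    have hin : ∀ x ∈ Icc 0 b, sig e (cs w b) x = sig e C x := by
      intro x hx
      rw [sig, sig]
      congr 2
      ext y'
      simp only [sec, mem_ofPred_eq]
      have h2 : ∑ i, w i * (e.symm (x, y')) i = x := by
        rw [← he]
        simp
      constructor
      · intro hy
        refine ⟨hy.1, ?_⟩
        simp
      · intro hy
        refine ⟨hy.1, ?_⟩
        rw [h2, abs_of_nonneg hx.1]
        exact hx.2
    have hout : ∀ x, b < x → sig e (cs w b) x = 0 := by
      intro x hx
      have : sec e (cs w b) x = ∅ := by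
        rw [eq_empty_iff_forall_notMem]
        intro y' hy'
        have h2 : ∑ i, w i * (e.symm (x, y')) i = x := by
          rw [← he]
          simp
        have h3 := hy'.2
        rw [h2] at h3
        have := (le_abs_self x).trans h3
        linarith
      rw [sig, this]
      simp
    have anti' := sig_antitone e (cs_compact w b) (cs_convex w b) (cs_symm w b)
    have hint' : ∀ a b', 0 ≤ a → 0 ≤ b' → IntervalIntegrable (sig e (cs w b)) volume a b' := by
      intro a b' ha hb'
      apply AntitoneOn.intervalIntegrable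
      apply anti'.mono
      intro x hx
      exact le_trans (le_min ha hb') hx.1
    rw [← intervalIntegral.integral_add_adjacent_intervals (hint' 0 b le_rfl hb.le)
      (hint' b (b + 1) hb.le (by linarith))]
    have e1 : ∫ x in (0 : ℝ)..b, sig e (cs w b) x = ∫ x in (0 : ℝ)..b, sig e C x := by
      apply intervalIntegral.integral_congr
      intro x hx
      rw [uIcc_of_le hb.le] at hx
      exact hin x hx
    have e2 : ∫ x in b..(b + 1), sig e (cs w b) x = 0 := by
      rw [intervalIntegral.integral_of_le (by linarith)]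
      apply setIntegral_eq_zero_of_forall_eq_zero
      intro x hx
      exact hout x hx.1
    rw [e1, e2, add_zero]
  rw [val c hc, val c' hc']
  have hsplit := intervalIntegral.integral_add_adjacent_intervals (hint 0 c le_rfl hc.le)
    (hint c c' hc.le hc'.le)
  have hb1 : c * sig e C c ≤ ∫ x in (0 : ℝ)..c, sig e C x := by
    have : ∫ x in (0 : ℝ)..c, sig e C c ≤ ∫ x in (0 : ℝ)..c, sig e C x := by
      apply intervalIntegral.integral_mono_on hc.le (by simp) (hint 0 c le_rfl hc.le)
      intro x hx
      exact anti hx.1 hc.le hx.2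
    rw [intervalIntegral.integral_const, smul_eq_mul] at this
    linarith
  have hb2 : ∫ x in c..c', sig e C x ≤ (c' - c) * sig e C c := by
    have : ∫ x in c..c', sig e C x ≤ ∫ x in c..c', sig e C c := by
      apply intervalIntegral.integral_mono_on hcc (hint c c' hc.le hc'.le) (by simp)
      intro x hx
      exact anti hc.le (hc.le.trans hx.1) hx.1
    rw [intervalIntegral.integral_const, smul_eq_mul] at this
    linarith
  have h0 : 0 ≤ c' - c := by linarith
  have h6 : c * ∫ x in (0 : ℝ)..c', sig e C x ≤ c' * ∫ x in (0 : ℝ)..c, sig e C x := by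
    rw [← hsplit]
    nlinarith [mul_le_mul_of_nonneg_left hb1 h0]
  nlinarith [mul_le_mul_of_nonneg_left h6 hκ.le]

/-- the Busemann norm is log-convex in logarithmic coordinates -/
theorem NN_log {m : ℕ} (a h g : Fin (m + 1) → ℝ) {c d l : ℝ} (hh : ∀ i, 0 < h i)
    (hg : ∀ i, 0 < g i) (hc : 0 < c) (hd : 0 < d) (hl0 : 0 < l) (hl1 : l < 1) :
    NN (fun i => a i * (h i ^ (1 - l) * g i ^ l)) (c ^ (1 - l) * d ^ l) ≤
      NN (fun i => a i * h i) c ^ (1 - l) * NN (fun i => a i * g i) d ^ l := by
  set A := NN (fun i => a i * h i) c with hA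
  set B := NN (fun i => a i * g i) d with hB
  have hA0 : 0 < A := NN_pos _ hc
  have hB0 : 0 < B := NN_pos _ hd
  have hl : 0 < 1 - l := by linarith
  set θ := B / A with hθ
  have hθ0 : 0 < θ := by positivity
  set s := (1 - l) * θ ^ l with hs
  set t := l * θ ^ (l - 1) with ht
  have hs0 : 0 < s := by positivity
  have ht0 : 0 < t := by positivity
  have amgm : ∀ x y : ℝ, 0 < x → 0 < y → x ^ (1 - l) * y ^ l ≤ s * x + t * y := by
    intro x y hx hy
    have h1 := Real.geom_mean_le_arith_mean2_weighted hl.le hl0.le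
      (show 0 ≤ θ ^ l * x by positivity) (show 0 ≤ θ ^ (l - 1) * y by positivity) (by ring)
    have e1 : (θ ^ l * x) ^ (1 - l) * (θ ^ (l - 1) * y) ^ l = x ^ (1 - l) * y ^ l := by
      rw [Real.mul_rpow (by positivity) hx.le, Real.mul_rpow (by positivity) hy.le,
        ← Real.rpow_mul hθ0.le, ← Real.rpow_mul hθ0.le]
      have : θ ^ (l * (1 - l)) * x ^ (1 - l) * (θ ^ ((l - 1) * l) * y ^ l) =
          (θ ^ (l * (1 - l)) * θ ^ ((l - 1) * l)) * (x ^ (1 - l) * y ^ l) := by ring
      rw [this, ← Real.rpow_add hθ0]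
      have e0 : l * (1 - l) + (l - 1) * l = 0 := by ring
      rw [e0, Real.rpow_zero, one_mul]
    rw [e1] at h1
    rw [hs, ht]
    linarith
  have hgeo0 : 0 < c ^ (1 - l) * d ^ l := by positivity
  calc NN (fun i => a i * (h i ^ (1 - l) * g i ^ l)) (c ^ (1 - l) * d ^ l)
      ≤ NN (s • (fun i => a i * h i) + t • (fun i => a i * g i)) (c ^ (1 - l) * d ^ l) := by
        apply NN_mono_w _ _ hgeo0
        intro i
        simp only [Pi.add_apply, Pi.smul_apply, smul_eq_mul]
        have e1 : s * (a i * h i) + t * (a i * g i) = a i * (s * h i + t * g i) := by ring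
        have h1 := hh i
        have h2 := hg i
        rw [e1, abs_mul (a i), abs_mul (a i)]
        have h3 := amgm _ _ h1 h2
        rw [abs_of_nonneg (a := h i ^ (1 - l) * g i ^ l) (by positivity),
          abs_of_nonneg (a := s * h i + t * g i) (by positivity)]
        gcongr
    _ ≤ NN (s • (fun i => a i * h i) + t • (fun i => a i * g i)) (s * c + t * d) :=
        NN_mono_c _ hgeo0 (amgm c d hc hd)
    _ ≤ s * A + t * B := NN_combo _ _ hc hd hs0 ht0
    _ = A ^ (1 - l) * B ^ l := by
        have e1 : θ ^ l * A = A ^ (1 - l) * B ^ l := by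
          rw [hθ, Real.div_rpow hB0.le hA0.le, Real.rpow_sub hA0, Real.rpow_one]
          ring
        have e2 : θ ^ (l - 1) * B = A ^ (1 - l) * B ^ l := by
          rw [hθ, Real.div_rpow hB0.le hA0.le, Real.rpow_sub hB0, Real.rpow_one,
            Real.rpow_sub hA0, Real.rpow_one, Real.rpow_sub hA0, Real.rpow_one]
          field_simp
        rw [hs, ht, mul_assoc, mul_assoc, e1, e2]
        ring

end Vale.Agent.H21.LBM
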