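import Vale.Agent.H21.LBM.Gen

open MeasureTheory Set Filter Topology Metric Module
open scoped ENNReal NNReal Pointwise Function

namespace Vale.Agent.H21.LBM

lemma hyp_null {n : ℕ} (w : Fin n → ℝ) (hw : w ≠ 0) :
    volume {x : Fin n → ℝ | ∑ k, w k * x k = 0} = 0 := by
  set f : (Fin n → ℝ) →ₗ[ℝ] ℝ := ∑ k, w k • LinearMap.proj k with hf
  have hfx : ∀ x, f x = ∑ k, w k * x k := by
    intro x
    simp [hf]
  have e : {x : Fin n → ℝ | ∑ k, w k * x k = 0} = (LinearMap.ker f : Set (Fin n → ℝ)) := by
    ext x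
    simp only [mem_ofPred_eq, SetLike.mem_coe, LinearMap.mem_ker, hfx]
  rw [e]
  apply Measure.addHaar_submodule
  intro htop
  apply hw
  have h1 : f w = 0 := by
    have : w ∈ LinearMap.ker f := by rw [htop]; trivial
    exact this
  rw [hfx] at h1
  funext k
  have h2 := (Finset.sum_eq_zero_iff_of_nonneg (fun i _ => mul_self_nonneg (w i))).1 h1 k
    (Finset.mem_univ k)
  simpa using h2

/-- the part of `poly u h` over the `i`-th pair of facets -/
def cone {n N : ℕ} (u : Fin N → Fin n → ℝ) (h : Fin N → ℝ) (i : Fin N) : Set (Fin n → ℝ) :=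
  {x | x ∈ poly u h ∧ ∀ k, |∑ t, u k t * x t| / h k ≤ |∑ t, u i t * x t| / h i}

lemma cone_closed {n N : ℕ} (u : Fin N → Fin n → ℝ) (h : Fin N → ℝ) (i : Fin N) :
    IsClosed (cone u h i) := by
  have e : cone u h i = poly u h ∩
      ⋂ k, {x : Fin n → ℝ | |∑ t, u k t * x t| / h k ≤ |∑ t, u i t * x t| / h i} := by
    ext y
    simp [cone]
  rw [e]
  exact (poly_closed u h).inter (isClosed_iInter fun k => isClosed_le (by fun_prop) (by fun_prop))

lemma cone_sum {n N : ℕ} (u : Fin N → Fin n → ℝ) (h : Fin N → ℝ) (hh : ∀ i, 0 < h i)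
    (hpar : ∀ i k, i ≠ k → LinearIndependent ℝ ![u i, u k]) :
    ∑ i, volume (cone u h i) ≤ volume (poly u h) := by
  have h1 : Pairwise (AEDisjoint volume on (fun i => cone u h i)) := by
    intro i k hik
    show volume (cone u h i ∩ cone u h k) = 0
    have hli := LinearIndependent.pair_iff.1 (hpar i k hik)
    have hne : ∀ σ : ℝ, (σ = 1 ∨ σ = -1) → h k • u i + (σ * h i) • u k ≠ 0 := by
      intro σ _ h0
      have := (hli _ _ h0).1
      exact (hh k).ne' this
    apply measure_mono_null (t := {x : Fin n → ℝ | ∑ t, (h k • u i + (1 * h i) • u k) t * x t = 0}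
      ∪ {x : Fin n → ℝ | ∑ t, (h k • u i + (-1 * h i) • u k) t * x t = 0})
    · rintro x ⟨hx1, hx2⟩
      have h2 : |∑ t, u i t * x t| / h i = |∑ t, u k t * x t| / h k :=
        le_antisymm (hx2.2 i) (hx1.2 k)
      rw [div_eq_div_iff (hh i).ne' (hh k).ne'] at h2
      have e : ∀ σ : ℝ, ∑ t, (h k • u i + (σ * h i) • u k) t * x t =
          h k * ∑ t, u i t * x t + σ * h i * ∑ t, u k t * x t := by
        intro σ
        simp only [Pi.add_apply, Pi.smul_apply, smul_eq_mul]
        rw [Finset.mul_sum, Finset.mul_sum, ← Finset.sum_add_distrib]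
        exact Finset.sum_congr rfl fun t _ => by ring
      simp only [mem_union, mem_ofPred_eq, e]
      have h3 : |h k * ∑ t, u i t * x t| = |h i * ∑ t, u k t * x t| := by
        rw [abs_mul, abs_mul, abs_of_pos (hh i), abs_of_pos (hh k)]
        linarith
      rcases abs_eq_abs.1 h3 with h4 | h4
      · right
        rw [h4]; ring
      · left
        rw [h4]; ring
    · rw [measure_union_null_iff]
      exact ⟨hyp_null _ (hne 1 (Or.inl rfl)), hyp_null _ (hne (-1) (Or.inr rfl))⟩
  have h2 := measure_iUnion₀ h1 (fun i => (cone_closed u h i).measurableSet.nullMeasurableSet)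
  rw [tsum_fintype] at h2
  rw [← h2]
  exact measure_mono (iUnion_subset fun i x hx => hx.1)

lemma poly_scale {n N : ℕ} (u : Fin (N + 1) → Fin n → ℝ) (h : Fin (N + 1) → ℝ)
    (hh : ∀ i, 0 < h i) (v : Fin (N + 1) → ℝ) (s : ℝ) :
    poly u (fun i => h i * Real.exp (s * v i)) ⊆
      ⋃ i, Real.exp (s * v i) • cone u h i := by
  intro x hx
  obtain ⟨i, hi⟩ := Finite.exists_max (fun k => |∑ t, u k t * x t| / h k)
  set r := Real.exp (s * v i) with hr
  have hr0 : 0 < r := Real.exp_pos _
  have e : ∀ k, ∑ t, u k t * (r⁻¹ • x) t = r⁻¹ * ∑ t, u k t * x t := by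
    intro k
    simp only [Pi.smul_apply, smul_eq_mul, Finset.mul_sum]
    exact Finset.sum_congr rfl fun t _ => by ring
  have e' : ∀ k, |∑ t, u k t * (r⁻¹ • x) t| = r⁻¹ * |∑ t, u k t * x t| := by
    intro k
    rw [e, abs_mul, abs_of_pos (inv_pos.2 hr0)]
  have hxi : |∑ t, u i t * x t| / h i ≤ r := by
    rw [div_le_iff₀ (hh i), mul_comm]
    exact hx i
  rw [mem_iUnion]
  refine ⟨i, mem_smul_set.2 ⟨r⁻¹ • x, ⟨?_, ?_⟩, ?_⟩⟩
  · intro k
    rw [e']
    have h1 := (hi k).trans hxi
    rw [div_le_iff₀ (hh k)] at h1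
    rw [inv_mul_le_iff₀ hr0]
    exact h1
  · intro k
    rw [e', e', mul_div_assoc, mul_div_assoc]
    exact mul_le_mul_of_nonneg_left (hi k) (inv_pos.2 hr0).le
  · rw [smul_smul, mul_inv_cancel₀ hr0.ne', one_smul]

lemma vol_scale {n N : ℕ} (u : Fin (N + 1) → Fin n → ℝ) (h : Fin (N + 1) → ℝ)
    (hh : ∀ i, 0 < h i) (hfin : volume (poly u h) ≠ ⊤) (v : Fin (N + 1) → ℝ) (s : ℝ) :
    (volume (poly u (fun i => h i * Real.exp (s * v i)))).toReal ≤
      ∑ i, Real.exp (s * (n * v i)) * (volume (cone u h i)).toReal := by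
  have hc : ∀ i, volume (cone u h i) ≠ ⊤ := fun i =>
    ne_top_of_le_ne_top hfin (measure_mono fun x hx => hx.1)
  have h1 : volume (poly u (fun i => h i * Real.exp (s * v i))) ≤
      ∑ i, ENNReal.ofReal (Real.exp (s * (n * v i))) * volume (cone u h i) := by
    refine (measure_mono (poly_scale u h hh v s)).trans ((measure_iUnion_le _).trans ?_)
    rw [tsum_fintype]
    refine Finset.sum_le_sum fun i _ => ?_
    rw [Measure.addHaar_smul, finrank_fin_fun, abs_of_pos (pow_pos (Real.exp_pos _) n),
      ← Real.exp_nat_mul]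
    apply le_of_eq
    congr 3
    ring
  have h2 : ∑ i, ENNReal.ofReal (Real.exp (s * (n * v i))) * volume (cone u h i) ≠ ⊤ := by
    rw [ENNReal.sum_ne_top]
    exact fun i _ => ENNReal.mul_ne_top ENNReal.ofReal_ne_top (hc i)
  calc (volume (poly u (fun i => h i * Real.exp (s * v i)))).toReal
      ≤ (∑ i, ENNReal.ofReal (Real.exp (s * (n * v i))) * volume (cone u h i)).toReal :=
        ENNReal.toReal_mono h2 h1
    _ = _ := by
        rw [ENNReal.toReal_sum (fun i _ => ENNReal.mul_ne_top ENNReal.ofReal_ne_top (hc i))]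
        refine Finset.sum_congr rfl fun i _ => ?_
        rw [ENNReal.toReal_mul, ENNReal.toReal_ofReal (Real.exp_pos _).le]

lemma limit_ineq {N : ℕ} (A r : ℝ) (w c : Fin N → ℝ)
    (H : ∀ s : ℝ, 0 < s → s < 1 → A * Real.exp (s * r) ≤
      A + ∑ i, (Real.exp (s * w i) - 1) * c i) :
    A * r ≤ ∑ i, w i * c i := by
  set φ : ℝ → ℝ := fun s => A + ∑ i, (Real.exp (s * w i) - 1) * c i - A * Real.exp (s * r)
    with hφ
  have hd : HasDerivAt φ (∑ i, w i * c i - A * r) 0 := by
    have h1 : ∀ i ∈ (Finset.univ : Finset (Fin N)),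
        HasDerivAt (fun s : ℝ => (Real.exp (s * w i) - 1) * c i) (w i * c i) 0 := by
      intro i _
      have h2 : HasDerivAt (fun s : ℝ => s * w i) (1 * w i) 0 := (hasDerivAt_id (0 : ℝ)).mul_const _
      have h3 := ((h2.exp).sub_const 1).mul_const (c i)
      simpa using h3
    have h4 : HasDerivAt (fun s : ℝ => A * Real.exp (s * r)) (A * r) 0 := by
      have h2 : HasDerivAt (fun s : ℝ => s * r) (1 * r) 0 := (hasDerivAt_id (0 : ℝ)).mul_const _
      have h3 := (h2.exp).const_mul A
      simpa using h3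
    exact ((HasDerivAt.fun_sum h1).const_add A).sub h4
  have h0 : φ 0 = 0 := by simp [hφ]
  have hlim := hd.tendsto_slope_zero_right
  have h5 : 0 ≤ ∑ i, w i * c i - A * r := by
    refine ge_of_tendsto hlim ?_
    filter_upwards [Ioo_mem_nhdsGT (show (0 : ℝ) < 1 by norm_num)] with s hs
    rw [zero_add, h0, sub_zero, smul_eq_mul]
    have := H s hs.1 hs.2
    have h6 : 0 ≤ φ s := by simp only [hφ]; linarith
    exact mul_nonneg (inv_pos.2 hs.1).le h6
  linarith

/-- log-Minkowski inequality, data form -/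
theorem log_mink {m : ℕ} (u : Fin (m + 2) → Fin (m + 1) → ℝ)
    (hu : Submodule.span ℝ (Set.range u) = ⊤)
    (hpar : ∀ i k, i ≠ k → LinearIndependent ℝ ![u i, u k])
    (h g : Fin (m + 2) → ℝ) (hh : ∀ i, 0 < h i) (hg : ∀ i, 0 < g i) {L : Set (Fin (m + 1) → ℝ)}
    (hL : L ⊆ poly u g) (hL0 : volume L ≠ 0) :
    (volume (poly u h)).toReal * Real.log ((volume L).toReal / (volume (poly u h)).toReal) ≤
      ((m : ℝ) + 1) * ∑ i, (volume (cone u h i)).toReal * Real.log (g i / h i) := by
  set A := (volume (poly u h)).toReal with hA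
  have hA0 : 0 < A := poly_pos u hu h hh
  have hAt : volume (poly u h) ≠ ⊤ := by
    intro h0
    rw [hA, h0] at hA0
    simp at hA0
  have hB0 : 0 < (volume (poly u g)).toReal := poly_pos u hu g hg
  have hBt : volume (poly u g) ≠ ⊤ := by
    intro h0
    rw [h0] at hB0
    simp at hB0
  have hLt : volume L ≠ ⊤ := ne_top_of_le_ne_top hBt (measure_mono hL)
  have hLp : 0 < (volume L).toReal := ENNReal.toReal_pos hL0 hLt
  have hLB : (volume L).toReal ≤ (volume (poly u g)).toReal :=
    ENNReal.toReal_mono hBt (measure_mono hL)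
  have hct : ∀ i, volume (cone u h i) ≠ ⊤ := fun i =>
    ne_top_of_le_ne_top hAt (measure_mono fun x hx => hx.1)
  have hsum : ∑ i, (volume (cone u h i)).toReal ≤ A := by
    rw [hA, ← ENNReal.toReal_sum (fun i _ => hct i)]
    exact ENNReal.toReal_mono hAt (cone_sum u h hh hpar)
  have key := limit_ineq A (Real.log ((volume L).toReal / A))
    (fun i => ((m : ℝ) + 1) * Real.log (g i / h i)) (fun i => (volume (cone u h i)).toReal) (by
      intro s hs0 hs1
      have h1 := poly_lc u hu h g hh hg hs0 hs1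
      have e1 : (fun i => h i ^ (1 - s) * g i ^ s) =
          fun i => h i * Real.exp (s * Real.log (g i / h i)) := by
        funext i
        have e2 : Real.exp (s * Real.log (g i / h i)) = (g i / h i) ^ s := by
          rw [Real.rpow_def_of_pos (div_pos (hg i) (hh i))]
          congr 1
          ring
        rw [e2, Real.div_rpow (hg i).le (hh i).le, Real.rpow_sub (hh i), Real.rpow_one]
        field_simp
      rw [e1] at h1
      have h2 := vol_scale u h hh hAt (fun i => Real.log (g i / h i)) s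
      have h3 : A * Real.exp (s * Real.log ((volume L).toReal / A)) ≤
          A ^ (1 - s) * (volume (poly u g)).toReal ^ s := by
        have e3 : Real.exp (s * Real.log ((volume L).toReal / A)) =
            ((volume L).toReal / A) ^ s := by
          rw [Real.rpow_def_of_pos (div_pos hLp hA0)]
          congr 1
          ring
        rw [e3, Real.div_rpow hLp.le hA0.le, Real.rpow_sub hA0, Real.rpow_one]
        have h4 : (volume L).toReal ^ s ≤ (volume (poly u g)).toReal ^ s :=
          Real.rpow_le_rpow hLp.le hLB hs0.le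
        have h5 : 0 < A ^ s := by positivity
        calc A * ((volume L).toReal ^ s / A ^ s) = A / A ^ s * (volume L).toReal ^ s := by ring
          _ ≤ _ := by gcongr
      refine (h3.trans (h1.trans h2)).trans ?_
      have e4 : ∀ i, Real.exp (s * (((m + 1 : ℕ) : ℝ) * Real.log (g i / h i))) =
          Real.exp (s * (((m : ℝ) + 1) * Real.log (g i / h i))) := by
        intro i
        push_cast
        rfl
      simp only [e4]
      have e5 : ∑ i, (Real.exp (s * (((m : ℝ) + 1) * Real.log (g i / h i))) - 1) *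
          (volume (cone u h i)).toReal =
          ∑ i, Real.exp (s * (((m : ℝ) + 1) * Real.log (g i / h i))) *
          (volume (cone u h i)).toReal - ∑ i, (volume (cone u h i)).toReal := by
        rw [← Finset.sum_sub_distrib]
        exact Finset.sum_congr rfl fun i _ => by ring
      rw [e5]
      linarith)
  calc A * Real.log ((volume L).toReal / A)
      ≤ ∑ i, ((m : ℝ) + 1) * Real.log (g i / h i) * (volume (cone u h i)).toReal := key
    _ = _ := by
        rw [Finset.mul_sum]
        exact Finset.sum_congr rfl fun i _ => by ring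

end Vale.Agent.H21.LBM
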