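import Vale.Agent.H21.LBM.BM
import Vale.Agent.H21.LBM.Ball

open MeasureTheory Set Filter Topology Metric
open scoped ENNReal NNReal

namespace Vale.Agent.H21.LBM

lemma exists_slice {m : ℕ} {z : Fin (m + 1) → ℝ} (hz : z ≠ 0) :
    ∃ e : (Fin (m + 1) → ℝ) ≃L[ℝ] ℝ × (Fin m → ℝ), ∀ y, (e y).1 = ∑ i, z i * y i := by
  obtain ⟨j, hj⟩ : ∃ j, z j ≠ 0 := by
    by_contra hcon
    push Not at hcon
    exact hz (funext hcon)
  let T : (Fin (m + 1) → ℝ) →ₗ[ℝ] ℝ × (Fin m → ℝ) :=
    LinearMap.prod (∑ i, z i • LinearMap.proj i) (LinearMap.pi fun k => LinearMap.proj (j.succAbove k))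
  have hT1 : ∀ y, (T y).1 = ∑ i, z i * y i := by
    intro y
    simp [T]
  have hT2 : ∀ y k, (T y).2 k = y (j.succAbove k) := by
    intro y k
    simp [T]
  have hinj : Function.Injective T := by
    rw [injective_iff_map_eq_zero]
    intro y hy
    have h2 : ∀ k, y (j.succAbove k) = 0 := by
      intro k
      rw [← hT2 y k, hy]
      rfl
    have h1 : ∑ i, z i * y i = 0 := by
      rw [← hT1, hy]
      rfl
    rw [Fin.sum_univ_succAbove _ j] at h1
    simp only [h2, mul_zero, Finset.sum_const_zero, add_zero, mul_eq_zero, hj, false_or] at h1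
    funext i
    rcases eq_or_ne i j with rfl | hi
    · exact h1
    · obtain ⟨k, rfl⟩ := Fin.exists_succAbove_eq hi
      exact h2 k
  refine ⟨(T.linearEquivOfInjective hinj ?_).toContinuousLinearEquiv, ?_⟩
  · simp [Module.finrank_prod, add_comm]
  · intro y
    exact hT1 y

variable {m : ℕ} (e : (Fin (m + 1) → ℝ) ≃L[ℝ] ℝ × (Fin m → ℝ))

/-- section -/
def sec (A : Set (Fin (m + 1) → ℝ)) (ζ : ℝ) : Set (Fin m → ℝ) := {y' | e.symm (ζ, y') ∈ A}

/-- section volume -/
noncomputable def sig (A : Set (Fin (m + 1) → ℝ)) (ζ : ℝ) : ℝ := (volume (sec e A ζ)).toReal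

lemma sec_compact {A : Set (Fin (m + 1) → ℝ)} (hA : IsCompact A) (ζ : ℝ) :
    IsCompact (sec e A ζ) := by
  have h1 : IsCompact (Prod.snd '' (e '' A)) := (hA.image e.continuous).image continuous_snd
  apply h1.of_isClosed_subset
  · exact hA.isClosed.preimage (e.symm.continuous.comp (by fun_prop))
  · intro y' hy'
    exact ⟨(ζ, y'), ⟨e.symm (ζ, y'), hy', by simp⟩, rfl⟩

lemma sec_convex {A : Set (Fin (m + 1) → ℝ)} (hA : Convex ℝ A) (ζ : ℝ) :
    Convex ℝ (sec e A ζ) := by
  intro a ha b hb s t hs ht hst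
  have := hA ha hb hs ht hst
  change e.symm (ζ, s • a + t • b) ∈ A
  rw [← map_smul, ← map_smul, ← map_add] at this
  convert this using 2
  ext
  · simp only [Prod.fst_add, Prod.smul_fst, smul_eq_mul]
    rw [← add_mul, hst, one_mul]
  · simp

lemma sig_nonneg (A : Set (Fin (m + 1) → ℝ)) (ζ : ℝ) : 0 ≤ sig e A ζ := ENNReal.toReal_nonneg

lemma sig_even {A : Set (Fin (m + 1) → ℝ)} (hsym : ∀ y ∈ A, -y ∈ A) (ζ : ℝ) :
    sig e A (-ζ) = sig e A ζ := by
  have : sec e A (-ζ) = Neg.neg ⁻¹' (sec e A ζ) := by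
    ext y'
    simp only [sec, mem_ofPred_eq, mem_preimage]
    have e1 : e.symm (ζ, -y') = -e.symm (-ζ, y') := by
      rw [← map_neg]
      simp
    rw [e1]
    constructor
    · intro h
      exact hsym _ h
    · intro h
      have := hsym _ h
      rwa [neg_neg] at this
  rw [sig, sig, this]
  congr 1
  exact (Measure.measurePreserving_neg (volume : Measure (Fin m → ℝ))).measure_preimage_equiv
    (f := MeasurableEquiv.neg _) _

lemma sec_comb {A B C : Set (Fin (m + 1) → ℝ)} {μ ζ η θ : ℝ} (hθ : (1 - μ) * ζ + μ * η = θ)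
    (h : ∀ a ∈ A, ∀ b ∈ B, (e a).1 = ζ → (e b).1 = η → (1 - μ) • a + μ • b ∈ C) :
    comb μ (sec e A ζ) (sec e B η) ⊆ sec e C θ := by
  rintro _ ⟨⟨a, b⟩, ⟨ha, hb⟩, rfl⟩
  have h1 := h _ ha _ hb (by simp) (by simp)
  change e.symm (θ, (1 - μ) • a + μ • b) ∈ C
  rw [← map_smul, ← map_smul, ← map_add] at h1
  convert h1 using 2
  ext
  · simp [hθ]
  · simp

lemma sig_comb {A B C : Set (Fin (m + 1) → ℝ)} (hA : IsCompact A) (hB : IsCompact B)
    (hC : IsCompact C) (hAc : Convex ℝ A) (hBc : Convex ℝ B)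
    {μ ζ η θ : ℝ} (h0 : 0 < μ) (h1 : μ < 1) (hθ : (1 - μ) * ζ + μ * η = θ)
    (h : ∀ a ∈ A, ∀ b ∈ B, (e a).1 = ζ → (e b).1 = η → (1 - μ) • a + μ • b ∈ C) :
    sig e A ζ ^ (1 - μ) * sig e B η ^ μ ≤ sig e C θ := by
  refine (bm_weight (sec_compact e hA ζ) (sec_compact e hB η) (sec_convex e hAc ζ)
    (sec_convex e hBc η) h0 h1).trans ?_
  exact ENNReal.toReal_mono (sec_compact e hC θ).measure_lt_top.ne
    (measure_mono (sec_comb e hθ h))

lemma sig_antitone {A : Set (Fin (m + 1) → ℝ)} (hA : IsCompact A) (hAc : Convex ℝ A)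
    (hsym : ∀ y ∈ A, -y ∈ A) : AntitoneOn (sig e A) (Ici 0) := by
  intro x hx y hy hxy
  rcases hxy.eq_or_lt with rfl | hlt
  · exact le_rfl
  have hx0 : 0 ≤ x := hx
  have hy0 : 0 < y := lt_of_le_of_lt hx0 hlt
  set μ := (1 - x / y) / 2 with hμ
  have hxy1 : x / y < 1 := by rwa [div_lt_one hy0]
  have hxy0 : 0 ≤ x / y := by positivity
  have h0 : 0 < μ := by linarith
  have h1 : μ < 1 := by linarith
  have key := sig_comb e hA hA hA hAc hAc h0 h1
    (show (1 - μ) * y + μ * (-y) = x by rw [hμ]; field_simp; ring)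
    (fun a ha b hb _ _ => hAc ha hb (by linarith) h0.le (by ring))
  rw [sig_even e hsym] at key
  rcases (sig_nonneg e A y).eq_or_lt with h | h
  · rw [← h]
    exact sig_nonneg e A x
  · rwa [← Real.rpow_add h, sub_add_cancel, Real.rpow_one] at key

lemma exists_const : ∃ κ : ℝ, 0 < κ ∧ ∀ A : Set (Fin (m + 1) → ℝ), IsCompact A → Convex ℝ A →
    (∀ y ∈ A, -y ∈ A) → ∀ r : ℝ, 0 < r → (∀ y ∈ A, (e y).1 < r) →
    (volume A).toReal = κ * ∫ ζ in (0 : ℝ)..r, sig e A ζ := by
  set ν : Measure (ℝ × (Fin m → ℝ)) := (volume : Measure (Fin (m + 1) → ℝ)).map e with hν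
  have hνH : ν.IsAddHaarMeasure := e.isAddHaarMeasure_map _
  have hvH : (volume : Measure (ℝ × (Fin m → ℝ))).IsAddHaarMeasure := by
    rw [Measure.volume_eq_prod]
    infer_instance
  set c := Measure.addHaarScalarFactor ν (volume : Measure (ℝ × (Fin m → ℝ))) with hc
  have hνc : ν = c • (volume : Measure (ℝ × (Fin m → ℝ))) :=
    Measure.isAddLeftInvariant_eq_smul _ _
  have hcpos : 0 < c := Measure.addHaarScalarFactor_pos_of_isAddHaarMeasure _ _
  refine ⟨2 * c, by positivity, ?_⟩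
  intro A hA hAc hsym r hr hAr
  have hAm : MeasurableSet A := hA.measurableSet
  have hpre : MeasurableSet (e.symm ⁻¹' A) := e.symm.continuous.measurable hAm
  have h1 : volume A = ν (e.symm ⁻¹' A) := by
    rw [hν, Measure.map_apply e.continuous.measurable hpre, ← preimage_comp]
    congr 1
    ext y
    simp
  have h2 : ν (e.symm ⁻¹' A) = c * ∫⁻ ζ, volume (sec e A ζ) := by
    rw [hνc, Measure.smul_apply, Measure.volume_eq_prod, Measure.prod_apply hpre]
    rfl
  have hmeas : Measurable fun ζ => volume (sec e A ζ) := measurable_measure_prodMk_left hpre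
  have hfin : ∀ ζ, volume (sec e A ζ) ≠ ⊤ := fun ζ => (sec_compact e hA ζ).measure_lt_top.ne
  have h3 : ∫ ζ, sig e A ζ = (∫⁻ ζ, volume (sec e A ζ)).toReal := by
    rw [integral_eq_lintegral_of_nonneg_ae (Eventually.of_forall (sig_nonneg e A))
      hmeas.ennreal_toReal.aestronglyMeasurable]
    congr 1
    apply lintegral_congr
    intro ζ
    rw [sig, ENNReal.ofReal_toReal (hfin ζ)]
  have hzero : ∀ ζ, r ≤ ζ → sig e A ζ = 0 := by
    intro ζ hζ
    have : sec e A ζ = ∅ := by
      rw [eq_empty_iff_forall_notMem]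
      intro y' hy'
      have := hAr _ hy'
      simp only [ContinuousLinearEquiv.apply_symm_apply] at this
      linarith
    rw [sig, this]
    simp
  have hanti := sig_antitone e hA hAc hsym
  have hint : ∀ a b, 0 ≤ a → 0 ≤ b → IntervalIntegrable (sig e A) volume a b := by
    intro a b ha hb
    apply AntitoneOn.intervalIntegrable
    apply hanti.mono
    intro x hx
    exact le_trans (le_min ha hb) hx.1
  have h4 : ∫ ζ in (-r)..r, sig e A ζ = ∫ ζ, sig e A ζ := by
    apply intervalIntegral.integral_eq_integral_of_support_subset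
    intro ζ hζ
    rw [Function.mem_support] at hζ
    constructor
    · by_contra hcon
      push Not at hcon
      apply hζ
      rw [← sig_even e hsym]
      exact hzero _ (by linarith)
    · by_contra hcon
      push Not at hcon
      exact hζ (hzero _ hcon.le)
  have h5 : ∫ ζ in (-r)..0, sig e A ζ = ∫ ζ in (0 : ℝ)..r, sig e A ζ := by
    have := intervalIntegral.integral_comp_neg (sig e A) (a := (0 : ℝ)) (b := r)
    rw [neg_zero] at this
    rw [← this]
    apply intervalIntegral.integral_congr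
    intro ζ _
    exact sig_even e hsym ζ
  have hintneg : IntervalIntegrable (sig e A) volume (-r) 0 := by
    have h6 := (IntervalIntegrable.iff_comp_neg (f := sig e A) (a := -r) (b := 0)
      (by finiteness)).2
    apply h6
    rw [neg_neg, neg_zero]
    refine (hint r 0 hr.le le_rfl).congr ?_
    intro ζ _
    exact (sig_even e hsym ζ).symm
  have h7 : ∫ ζ, sig e A ζ = 2 * ∫ ζ in (0 : ℝ)..r, sig e A ζ := by
    rw [← h4, ← intervalIntegral.integral_add_adjacent_intervals hintneg (hint 0 r le_rfl hr.le),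
      h5]
    ring
  rw [h1, h2, ENNReal.toReal_mul, ← h3, h7]
  simp
  ring

end Vale.Agent.H21.LBM
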